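import Vale.Agent.P025.R2.H720.KK

/-!
P025, rows A-END, tree side (helper63, with helper361/505/970): the relation `Cont d W` between
`D`-vertices `d` of the tree of `T` and places `W` of `N` at which `T` has a pole.
-/

namespace P025H63

open P025H373 P025H544 P025H505 P025H720

universe u v w

variable {C : Type u} {kb : Type v} {N : Type w}
  [NontriviallyNormedField C] [IsUltrametricDist C] [CompleteSpace C] [IsAlgClosed C] [CharZero C]
  [Field kb] [IsAlgClosed kb] [Field N] [Algebra kb C] [Algebra kb N] [TrdegOne kb N]
  {T : N} [Fact (Transcendental kb T)]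

/-- the place `W` of `N` lies in the disc vertex `d`: there is a valuation ring `O` of the residue
field of `d` which contains the series in `1/T` converging on `|T| ≥ 1`, does not contain `T`, and
induces `W`. -/
def Cont (d : DT C kb N T) (W : ValuationSubring N) : Prop :=
  ∃ O : ValuationSubring (KK d),
    (∀ x : F2 C, (x : F0 C) ∈ A2 C → algebraMap (F2 C) (KK d) x ∈ O) ∧
    algebraMap (NCT C kb N T) (KK d) (algebraMap N (NCT C kb N T) T) ∉ O ∧
    ∀ x : N, algebraMap (NCT C kb N T) (KK d) (algebraMap N (NCT C kb N T) x) ∈ O ↔ x ∈ W

end P025H63
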