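import Mathlib

/-!
Part (a) of A-UNIQ (blueprint A3): the functions `T₁`, `f`, `T₂`.
-/

namespace P025H63

open MulAction

/-- a multiplicative ultrametric norm (real valued) -/
structure IsNrm {N : Type*} [Field N] (v : N → ℝ) : Prop where
  zero : v 0 = 0
  one : v 1 = 1
  mul : ∀ x y, v (x * y) = v x * v y
  add : ∀ x y, v (x + y) ≤ max (v x) (v y)
  pos : ∀ x, x ≠ 0 → 0 < v x

namespace IsNrm

variable {N : Type*} [Field N] {v : N → ℝ} (h : IsNrm v)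
include h

theorem nonneg (x : N) : 0 ≤ v x := by
  rcases eq_or_ne x 0 with rfl | hx
  · rw [h.zero]
  · exact (h.pos x hx).le

theorem pow (x : N) (n : ℕ) : v (x ^ n) = v x ^ n := by
  induction n with
  | zero => simp [h.one]
  | succ n ih => rw [pow_succ, h.mul, ih, pow_succ]

theorem inv (x : N) : v x⁻¹ = (v x)⁻¹ := by
  rcases eq_or_ne x 0 with rfl | hx
  · simp [h.zero]
  · have h1 : v x⁻¹ * v x = 1 := by rw [← h.mul, inv_mul_cancel₀ hx, h.one]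
    exact eq_inv_of_mul_eq_one_left h1

theorem div (x y : N) : v (x / y) = v x / v y := by
  rw [div_eq_mul_inv, h.mul, h.inv, div_eq_mul_inv]

theorem neg_one : v (-1) = 1 := by
  have h1 : v (-1) * v (-1) = 1 := by rw [← h.mul]; simp [h.one]
  nlinarith [h.nonneg (-1)]

theorem neg (x : N) : v (-x) = v x := by
  rw [← neg_one_mul, h.mul, h.neg_one, one_mul]

theorem sub (x y : N) : v (x - y) ≤ max (v x) (v y) := by
  rw [sub_eq_add_neg]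
  refine (h.add _ _).trans ?_
  rw [h.neg]

theorem add_eq {x y : N} (hxy : v y < v x) : v (x + y) = v x := by
  apply le_antisymm
  · exact (h.add x y).trans (by rw [max_eq_left hxy.le])
  · by_contra hcon
    push Not at hcon
    have h1 : v x ≤ max (v (x + y)) (v y) := by
      have := h.sub (x + y) y
      rwa [add_sub_cancel_right] at this
    exact absurd h1 (not_le.2 (max_lt hcon hxy))

theorem sub_eq {x y : N} (hxy : v y < v x) : v (x - y) = v x := by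
  rw [sub_eq_add_neg]
  exact h.add_eq (by rwa [h.neg])

theorem sub_eq' {x y : N} (hxy : v x < v y) : v (x - y) = v y := by
  rw [← neg_sub, h.neg]
  exact h.sub_eq hxy

theorem prod {ι : Type*} (s : Finset ι) (f : ι → N) : v (∏ i ∈ s, f i) = ∏ i ∈ s, v (f i) := by
  classical
  induction s using Finset.induction_on with
  | empty => simp [h.one]
  | insert a s ha ih => rw [Finset.prod_insert ha, Finset.prod_insert ha, h.mul, ih]

end IsNrm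

section Fix

variable {kb N H : Type*} [NormedField kb] [Field N] [Algebra kb N] [Group H]
  [MulSemiringAction H N]

/-- the product over an orbit -/
theorem exists_fixed_prod {v₁ v₂ : N → ℝ} (h₁ : IsNrm v₁) (h₂ : IsNrm v₂)
    (hi₁ : ∀ (g : H) x, v₁ (g • x) = v₁ x) (hi₂ : ∀ (g : H) x, v₂ (g • x) = v₂ x)
    (hfin : ∀ x : N, (orbit H x).Finite) {x : N} (hx₁ : 1 < v₁ x) (hx₂ : v₂ x < 1) :
    ∃ y : N, (∀ g : H, g • y = y) ∧ 1 < v₁ y ∧ v₂ y < 1 := by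
  classical
  set s := (hfin x).toFinset with hs
  have hmem : ∀ y, y ∈ s ↔ y ∈ orbit H x := fun y => by rw [hs, Set.Finite.mem_toFinset]
  have hne : s.Nonempty := ⟨x, (hmem x).2 (mem_orbit_self x)⟩
  have hval₁ : ∀ y ∈ s, v₁ y = v₁ x := by
    intro y hy
    obtain ⟨g, rfl⟩ := (hmem y).1 hy
    exact hi₁ g x
  have hval₂ : ∀ y ∈ s, v₂ y = v₂ x := by
    intro y hy
    obtain ⟨g, rfl⟩ := (hmem y).1 hy
    exact hi₂ g x
  refine ⟨∏ y ∈ s, y, fun g => ?_, ?_, ?_⟩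
  · rw [Finset.smul_prod']
    refine Finset.prod_bij (fun y _ => g • y) ?_ ?_ ?_ ?_
    · intro y hy
      exact (hmem _).2 (mem_orbit_of_mem_orbit g ((hmem y).1 hy))
    · intro y _ y' _ hyy
      exact smul_left_cancel g hyy
    · intro y hy
      exact ⟨g⁻¹ • y, (hmem _).2 (mem_orbit_of_mem_orbit g⁻¹ ((hmem y).1 hy)), smul_inv_smul g y⟩
    · intro y _; rfl
  · rw [h₁.prod, Finset.prod_congr rfl hval₁, Finset.prod_const]
    exact one_lt_pow₀ hx₁ (Finset.card_pos.2 hne).ne'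
  · rw [h₂.prod, Finset.prod_congr rfl hval₂, Finset.prod_const]
    exact pow_lt_one₀ (h₂.nonneg x) hx₂ (Finset.card_pos.2 hne).ne'

/-- **The function `T₁`.** -/
theorem exists_T1 {v₁ v₂ : N → ℝ} (h₁ : IsNrm v₁) (h₂ : IsNrm v₂)
    (hc₁ : ∀ c : kb, v₁ (algebraMap kb N c) = ‖c‖) (hc₂ : ∀ c : kb, v₂ (algebraMap kb N c) = ‖c‖)
    (hdense : ∀ a b : ℝ, 0 ≤ a → a < b → ∃ c : kb, a < ‖c‖ ∧ ‖c‖ < b)
    (hi₁ : ∀ (g : H) x, v₁ (g • x) = v₁ x) (hi₂ : ∀ (g : H) x, v₂ (g • x) = v₂ x)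
    (hfin : ∀ x : N, (orbit H x).Finite) (hne : v₁ ≠ v₂) (B : ℝ) :
    ∃ T : N, (∀ g : H, g • T = T) ∧ B < v₁ T ∧ 1 < v₁ T ∧ v₂ T * B < 1 ∧ v₂ T < 1 ∧ T ≠ 0 := by
  -- first separate the two norms
  have key : ∃ x : N, 1 < v₁ x ∧ v₂ x < 1 := by
    obtain ⟨x, hx⟩ := Function.ne_iff.1 hne
    have hx0 : x ≠ 0 := by
      rintro rfl
      rw [h₁.zero, h₂.zero] at hx
      exact hx rfl
    rcases lt_or_gt_of_ne hx with hlt | hlt
    · obtain ⟨c, hc1, hc2⟩ := hdense _ _ (h₁.nonneg x) hlt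
      have hc0 : 0 < ‖c‖ := lt_of_le_of_lt (h₁.nonneg x) hc1
      refine ⟨algebraMap kb N c / x, ?_, ?_⟩
      · rw [h₁.div, hc₁, one_lt_div (h₁.pos x hx0)]; exact hc1
      · rw [h₂.div, hc₂, div_lt_one (h₂.pos x hx0)]; exact hc2
    · obtain ⟨c, hc1, hc2⟩ := hdense _ _ (h₂.nonneg x) hlt
      have hc0 : 0 < ‖c‖ := lt_of_le_of_lt (h₂.nonneg x) hc1
      refine ⟨x / algebraMap kb N c, ?_, ?_⟩
      · rw [h₁.div, hc₁, one_lt_div hc0]; exact hc2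
      · rw [h₂.div, hc₂, div_lt_one hc0]; exact hc1
  obtain ⟨x, hx1, hx2⟩ := key
  obtain ⟨y, hy, hy1, hy2⟩ := exists_fixed_prod h₁ h₂ hi₁ hi₂ hfin hx1 hx2
  have hy0 : y ≠ 0 := by
    rintro rfl
    rw [h₁.zero] at hy1
    linarith
  have e1 := tendsto_pow_atTop_atTop_of_one_lt hy1
  have e2 := (tendsto_pow_atTop_nhds_zero_of_lt_one (h₂.nonneg y) hy2).mul_const B
  rw [zero_mul] at e2
  have e3 := (e1.eventually_gt_atTop B).and ((e2.eventually (gt_mem_nhds zero_lt_one)).and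
    (Filter.eventually_gt_atTop 0))
  obtain ⟨M, hM1, hM2, hM3⟩ := e3.exists
  refine ⟨y ^ M, fun g => ?_, ?_, ?_, ?_, ?_, pow_ne_zero _ hy0⟩
  · rw [smul_pow', hy]
  · rwa [h₁.pow]
  · rw [h₁.pow]; exact one_lt_pow₀ hy1 (Nat.pos_iff_ne_zero.1 hM3)
  · rwa [h₂.pow]
  · rw [h₂.pow]; exact pow_lt_one₀ (h₂.nonneg y) hy2 (Nat.pos_iff_ne_zero.1 hM3)

/-- an element separating two norms over `kb` is not a constant -/
theorem T1_not_const {v₁ v₂ : N → ℝ}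
    (hc₁ : ∀ c : kb, v₁ (algebraMap kb N c) = ‖c‖) (hc₂ : ∀ c : kb, v₂ (algebraMap kb N c) = ‖c‖)
    {T : N} (h1 : 1 < v₁ T) (h2 : v₂ T < 1) (c : kb) : algebraMap kb N c ≠ T := by
  rintro rfl
  rw [hc₁] at h1
  rw [hc₂] at h2
  linarith

end Fix

/-- **All the properties of `T₁`, `f`, `T₂` at once.** -/
theorem exists_sep {kb N H : Type*} [NormedField kb] [Field N] [Algebra kb N] [Group H]
    [MulSemiringAction H N] {v₁ v₂ : N → ℝ} (h₁ : IsNrm v₁) (h₂ : IsNrm v₂)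
    (hc₁ : ∀ c : kb, v₁ (algebraMap kb N c) = ‖c‖) (hc₂ : ∀ c : kb, v₂ (algebraMap kb N c) = ‖c‖)
    (hdense : ∀ a b : ℝ, 0 ≤ a → a < b → ∃ c : kb, a < ‖c‖ ∧ ‖c‖ < b)
    (hi₁ : ∀ (g : H) x, v₁ (g • x) = v₁ x) (hi₂ : ∀ (g : H) x, v₂ (g • x) = v₂ x)
    (hfin : ∀ x : N, (orbit H x).Finite) (hne : v₁ ≠ v₂)
    (π : kb) (hπ0 : π ≠ 0) (hπ1 : ‖π‖ < 1) (hπH : ∀ g : H, g • algebraMap kb N π = algebraMap kb N π)
    (q a : ℕ) (hq : 0 < q) (ε : ℝ) (hε : 0 < ε) :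
    ∃ T₁ : N, (∀ g : H, g • T₁ = T₁) ∧ 1 < v₁ T₁ ∧ v₂ T₁ < 1 ∧
      (∀ c : kb, algebraMap kb N c ≠ T₁) ∧
      T₁ ^ q - algebraMap kb N π ^ a ≠ 0 ∧ T₁ ^ q - algebraMap kb N π ^ (a + q) ≠ 0 ∧
      (∀ g : H, g • (T₁ ^ q - algebraMap kb N π ^ a) = T₁ ^ q - algebraMap kb N π ^ a) ∧
      (∀ g : H, g • (T₁ ^ q - algebraMap kb N π ^ (a + q)) = T₁ ^ q - algebraMap kb N π ^ (a + q)) ∧
      v₁ ((T₁ ^ q - algebraMap kb N π ^ a) / (T₁ ^ q - algebraMap kb N π ^ (a + q)) - 1) < ε ∧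
      v₂ ((T₁ ^ q - algebraMap kb N π ^ a) / (T₁ ^ q - algebraMap kb N π ^ (a + q)) *
        algebraMap kb N π ^ q - 1) < ε ∧
      v₁ ((T₁ ^ q - algebraMap kb N π ^ a) * (T₁ ^ q - algebraMap kb N π ^ (a + q)))⁻¹ < 1 ∧
      v₂ ((T₁ ^ q - algebraMap kb N π ^ a) * (T₁ ^ q - algebraMap kb N π ^ (a + q)))⁻¹ =
        ‖π‖⁻¹ ^ (a + (a + q)) := by
  have hπp : 0 < ‖π‖ := norm_pos_iff.2 hπ0
  set P := algebraMap kb N π with hP
  -- choose `B`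
  set B : ℝ := max 1 (max (1 / ε) (1 / (ε * ‖π‖ ^ (a + q)))) with hB
  set B' : ℝ := B / ‖π‖ ^ (a + q) with hB'
  have hB1 : 1 ≤ B := le_max_left _ _
  have hBε : 1 / ε ≤ B := (le_max_left _ _).trans (le_max_right _ _)
  have hBε' : 1 / (ε * ‖π‖ ^ (a + q)) ≤ B := (le_max_right _ _).trans (le_max_right _ _)
  have hπq : 0 < ‖π‖ ^ (a + q) := pow_pos hπp _
  have hπq1 : ‖π‖ ^ (a + q) ≤ 1 := pow_le_one₀ hπp.le hπ1.le
  have hBB' : B ≤ B' := by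
    rw [hB', le_div_iff₀ hπq]
    nlinarith
  obtain ⟨T, hT, hTB, hT1, hT2B, hT2, hT0⟩ := exists_T1 h₁ h₂ hc₁ hc₂ hdense hi₁ hi₂ hfin hne B'
  have hv1P : ∀ n, v₁ (P ^ n) = ‖π‖ ^ n := fun n => by rw [h₁.pow, hc₁]
  have hv2P : ∀ n, v₂ (P ^ n) = ‖π‖ ^ n := fun n => by rw [h₂.pow, hc₂]
  have hPn1 : ∀ n, ‖π‖ ^ n ≤ 1 := fun n => pow_le_one₀ hπp.le hπ1.le
  have hTq1 : 1 < v₁ (T ^ q) := by rw [h₁.pow]; exact one_lt_pow₀ hT1 hq.ne'
  have hTq1' : v₁ T ≤ v₁ (T ^ q) := by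
    rw [h₁.pow]; exact le_self_pow₀ hT1.le hq.ne'
  have hTq2 : v₂ (T ^ q) ≤ v₂ T := by
    rw [h₂.pow]; exact pow_le_of_le_one (h₂.nonneg T) hT2.le hq.ne'
  -- `v₂ T ^ q < ε' ‖π‖ ^ (a + q)`
  have hT2s : v₂ (T ^ q) * B < ‖π‖ ^ (a + q) := by
    have h5 : v₂ T * B < ‖π‖ ^ (a + q) := by
      have : v₂ T * B' = v₂ T * B / ‖π‖ ^ (a + q) := by rw [hB']; ring
      rw [this, div_lt_one hπq] at hT2B
      exact hT2B
    have h6 : v₂ (T ^ q) * B ≤ v₂ T * B := mul_le_mul_of_nonneg_right hTq2 (by linarith)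
    linarith
  have hT2lt : v₂ (T ^ q) < ‖π‖ ^ (a + q) := by
    have := h₂.nonneg (T ^ q)
    nlinarith
  have hT2lt' : v₂ (T ^ q) < ‖π‖ ^ a := by
    refine hT2lt.trans_le ?_
    rw [pow_add]
    have := hPn1 q
    have h7 : 0 < ‖π‖ ^ a := pow_pos hπp a
    nlinarith
  -- values
  have e1 : ∀ n, v₁ (T ^ q - P ^ n) = v₁ (T ^ q) := fun n =>
    h₁.sub_eq (by rw [hv1P]; exact (hPn1 n).trans_lt hTq1)
  have e2 : v₂ (T ^ q - P ^ a) = ‖π‖ ^ a := by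
    rw [h₂.sub_eq' (by rw [hv2P]; exact hT2lt'), hv2P]
  have e3 : v₂ (T ^ q - P ^ (a + q)) = ‖π‖ ^ (a + q) := by
    rw [h₂.sub_eq' (by rw [hv2P]; exact hT2lt), hv2P]
  have n1 : T ^ q - P ^ a ≠ 0 := by
    intro h0
    have := e2
    rw [h0, h₂.zero] at this
    exact (pow_pos hπp a).ne this
  have n2 : T ^ q - P ^ (a + q) ≠ 0 := by
    intro h0
    have := e3
    rw [h0, h₂.zero] at this
    exact hπq.ne this
  have hfix : ∀ n, ∀ g : H, g • (T ^ q - P ^ n) = T ^ q - P ^ n := by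
    intro n g
    rw [smul_sub, smul_pow', smul_pow', hT, hπH]
  refine ⟨T, hT, hT1, hT2, T1_not_const hc₁ hc₂ hT1 hT2, n1, n2, hfix a, hfix (a + q),
    ?_, ?_, ?_, ?_⟩
  · have h5 : (T ^ q - P ^ a) / (T ^ q - P ^ (a + q)) - 1
        = (P ^ (a + q) - P ^ a) / (T ^ q - P ^ (a + q)) := by
      field_simp
      ring
    rw [h5, h₁.div, e1]
    have h6 : v₁ (P ^ (a + q) - P ^ a) ≤ 1 := by
      refine (h₁.sub _ _).trans ?_
      rw [hv1P, hv1P]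
      exact max_le (hPn1 _) (hPn1 _)
    have h7 : 1 / ε < v₁ (T ^ q) := by linarith
    rw [div_lt_iff₀ (by linarith)]
    rw [div_lt_iff₀ hε] at h7
    linarith
  · have h5 : (T ^ q - P ^ a) / (T ^ q - P ^ (a + q)) * P ^ q - 1
        = T ^ q * (P ^ q - 1) / (T ^ q - P ^ (a + q)) := by
      field_simp
      ring
    rw [h5, h₂.div, h₂.mul, e3]
    have h6 : v₂ (P ^ q - 1) ≤ 1 := by
      refine (h₂.sub _ _).trans ?_
      rw [hv2P, h₂.one]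
      exact max_le (hPn1 _) le_rfl
    rw [div_lt_iff₀ hπq]
    have h8 : v₂ (T ^ q) * v₂ (P ^ q - 1) ≤ v₂ (T ^ q) := by
      have := h₂.nonneg (T ^ q)
      nlinarith
    have h9 : v₂ (T ^ q) ≤ v₂ (T ^ q) * B * ε := by
      have h10 : 1 ≤ B * ε := by
        rw [div_le_iff₀ hε] at hBε
        exact hBε
      have := h₂.nonneg (T ^ q)
      nlinarith
    have h11 : v₂ (T ^ q) * B * ε < ‖π‖ ^ (a + q) * ε := mul_lt_mul_of_pos_right hT2s hε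
    linarith
  · rw [h₁.inv, h₁.mul, e1, e1]
    apply inv_lt_one_of_one_lt₀
    nlinarith
  · rw [h₂.inv, h₂.mul, e2, e3, ← pow_add, inv_pow]

end P025H63
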