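import Vale.Agent.P025.R2.H720.Ret
import Vale.Agent.P025.R2.H505.Exist
import Vale.Agent.P025.R2.H444.Est
import Vale.Agent.P025.R2.H444.TwoPoint

/-! # Uniqueness of fixed edges, part 1 (A-UNIQ)

* the norm of an edge on `N` determines the edge;
* elements of the residue field of an edge which are close to `1` are `n`-th powers;
* a pro-`q` group which fixes a `V`-vertex, and no edge, fixes only one `V`-vertex.
-/

set_option linter.unusedSectionVars false

namespace P025H63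

open scoped TensorProduct
open Polynomial P025H373 P025H544 P025H505 P025H720

universe u v w

section Norm

variable {C : Type u} {kb : Type v} {N : Type w}
  [NontriviallyNormedField C] [IsUltrametricDist C] [CompleteSpace C] [IsAlgClosed C] [CharZero C]
  [Field kb] [IsAlgClosed kb] [Field N] [Algebra kb C] [Algebra kb N] [TrdegOne kb N]
  {T : N} [Fact (Transcendental kb T)]

/-- the norm on `N` determines the edge -/
theorem edge_ext_of_norm (hd : DenseRange (algebraMap kb C)) (w₁ w₂ : ET C kb N T)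
    (h : ∀ x : N, ‖nToKK w₁ x‖ = ‖nToKK w₂ x‖) : w₁ = w₂ := by
  let δ : N →+* KK w₁ × KK w₂ := RingHom.prod (nToKK w₁) (nToKK w₂)
  let S : Subring (KK w₁ × KK w₂) := δ.range.topologicalClosure
  have hS : IsClosed (S : Set (KK w₁ × KK w₂)) := Subring.isClosed_topologicalClosure _
  have hN : ∀ x : N, (nToKK w₁ x, nToKK w₂ x) ∈ S := fun x =>
    Subring.le_topologicalClosure _ ⟨x, rfl⟩
  have hSn : ∀ z ∈ S, ‖z.1‖ = ‖z.2‖ := by
    intro z hz
    have hcl : IsClosed {z : KK w₁ × KK w₂ | ‖z.1‖ = ‖z.2‖} :=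
      isClosed_eq (continuous_norm.comp continuous_fst) (continuous_norm.comp continuous_snd)
    refine closure_minimal (s := (δ.range : Set (KK w₁ × KK w₂))) ?_ hcl hz
    rintro _ ⟨x, rfl⟩
    exact h x
  have hinv : ∀ z ∈ S, z.1 ≠ 0 → (z.1⁻¹, z.2⁻¹) ∈ S := by
    intro z hz h1
    have h2 : z.2 ≠ 0 := by
      rw [← norm_ne_zero_iff, ← hSn z hz, norm_ne_zero_iff]
      exact h1
    have hcont : ContinuousAt (fun z : KK w₁ × KK w₂ => (z.1⁻¹, z.2⁻¹)) z :=
      ContinuousAt.prodMk ((continuousAt_inv₀ h1).comp continuousAt_fst)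
        ((continuousAt_inv₀ h2).comp continuousAt_snd)
    have hz' : z ∈ closure (δ.range : Set (KK w₁ × KK w₂)) := hz
    have := hcont.continuousWithinAt.mem_closure (t := (δ.range : Set (KK w₁ × KK w₂))) hz' (by
      rintro _ ⟨x, rfl⟩
      refine ⟨x⁻¹, ?_⟩
      show (nToKK w₁ x⁻¹, nToKK w₂ x⁻¹) = ((nToKK w₁ x)⁻¹, (nToKK w₂ x)⁻¹)
      rw [map_inv₀, map_inv₀])
    exact this
  have hC : ∀ c : C, (cToKK w₁ c, cToKK w₂ c) ∈ S := by
    intro c
    refine hd.induction_on (p := fun c => (cToKK w₁ c, cToKK w₂ c) ∈ S) c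
      (hS.preimage ((continuous_cToKK w₁).prodMk (continuous_cToKK w₂))) ?_
    intro a
    have h1 : ∀ w : ET C kb N T, cToKK w (algebraMap kb C a) = nToKK w (algebraMap kb N a) := by
      intro w
      rw [cToKK_eq]
      show _ = algebraMap (NCT C kb N T) (KK w) (algebraMap N (NCT C kb N T) (algebraMap kb N a))
      rw [← IsScalarTower.algebraMap_apply kb C (NCT C kb N T),
        ← IsScalarTower.algebraMap_apply kb N (NCT C kb N T)]
    rw [h1, h1]
    exact hN _
  let ι : C ⊗[kb] N →+* NCT C kb N T := (algebraMap (C ⊗[kb] N) (NC C kb N) : _ →+* NC C kb N)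
  let μ₁ : C ⊗[kb] N →+* KK w₁ := (algebraMap (NCT C kb N T) (KK w₁)).comp ι
  let μ₂ : C ⊗[kb] N →+* KK w₂ := (algebraMap (NCT C kb N T) (KK w₂)).comp ι
  have hι : ∀ (c : C) (x : N), ι (c ⊗ₜ[kb] x) =
      algebraMap C (NCT C kb N T) c * algebraMap N (NCT C kb N T) x := fun c x => tmul_eq C kb N c x
  have hmem : ∀ a : C ⊗[kb] N, (μ₁ a, μ₂ a) ∈ S := by
    intro a
    induction a using TensorProduct.induction_on with
    | zero => rw [map_zero, map_zero]; exact S.zero_mem
    | add x y hx hy => rw [map_add, map_add]; exact S.add_mem hx hy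
    | tmul c x =>
      have h2 := S.mul_mem (hC c) (hN x)
      rw [cToKK_eq, cToKK_eq] at h2
      have e1 : μ₁ (c ⊗ₜ[kb] x) = algebraMap (NCT C kb N T) (KK w₁)
          (algebraMap C (NCT C kb N T) c) * nToKK w₁ x := by
        show algebraMap (NCT C kb N T) (KK w₁) (ι (c ⊗ₜ[kb] x)) = _
        rw [hι, map_mul]; rfl
      have e2 : μ₂ (c ⊗ₜ[kb] x) = algebraMap (NCT C kb N T) (KK w₂)
          (algebraMap C (NCT C kb N T) c) * nToKK w₂ x := by
        show algebraMap (NCT C kb N T) (KK w₂) (ι (c ⊗ₜ[kb] x)) = _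
        rw [hι, map_mul]; rfl
      rw [e1, e2]
      exact h2
  have hfrac : ∀ y : NCT C kb N T, ∃ a b : C ⊗[kb] N, ι b ≠ 0 ∧ ι a / ι b = y := by
    intro y
    obtain ⟨a, b, hb, hab⟩ := IsFractionRing.div_surjective (A := C ⊗[kb] N) (K := NC C kb N) y
    refine ⟨a, b, ?_, hab⟩
    have := IsFractionRing.to_map_eq_zero_iff (R := C ⊗[kb] N) (K := NC C kb N) (x := b)
    intro h0
    exact nonZeroDivisors.ne_zero hb (this.1 h0)
  have hNC : ∀ y : NCT C kb N T,
      (algebraMap (NCT C kb N T) (KK w₁) y, algebraMap (NCT C kb N T) (KK w₂) y) ∈ S := by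
    intro y
    obtain ⟨a, b, hb0, rfl⟩ := hfrac y
    have h4 := S.mul_mem (hmem a) (hinv _ (hmem b) (by
      show algebraMap (NCT C kb N T) (KK w₁) (ι b) ≠ 0
      rw [Ne, map_eq_zero]; exact hb0))
    rw [map_div₀, map_div₀, div_eq_mul_inv, div_eq_mul_inv]
    exact h4
  have hF0 : ∀ a : F0 C, (algebraMap (F0 C) (KK w₁) a, algebraMap (F0 C) (KK w₂) a) ∈ S := by
    intro a
    refine F0_induction (p := fun a => (algebraMap (F0 C) (KK w₁) a,
      algebraMap (F0 C) (KK w₂) a) ∈ S) a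
      (hS.preimage ((continuous_F0_KK w₁).prodMk (continuous_F0_KK w₂))) ?_
    intro f
    rw [algebraMap_KK_F, algebraMap_KK_F]
    exact hNC _
  have hall : ∀ z : F0 C ⊗[RatFunc C] NCT C kb N T, (toKK w₁ z, toKK w₂ z) ∈ S := by
    intro z
    induction z using TensorProduct.induction_on with
    | zero =>
      rw [map_zero, map_zero]; exact S.zero_mem
    | add x y hx hy =>
      rw [map_add, map_add]
      exact S.add_mem hx hy
    | tmul a y =>
      rw [toKK_tmul, toKK_tmul]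
      exact S.mul_mem (hF0 a) (hNC y)
  apply PrimeSpectrum.ext
  ext z
  rw [← toKK_eq_zero_iff, ← toKK_eq_zero_iff, ← norm_eq_zero, hSn _ (hall z), norm_eq_zero]

end Norm

section Root

variable {K : Type*} [NormedField K] [IsUltrametricDist K]

lemma pow_near {r : ℝ} (hr : r ≤ 1) {z : K} (hz : ‖z‖ ≤ r) (i : ℕ) :
    ‖(1 + z) ^ i - 1‖ ≤ r := by
  have h1 : ‖1 + z‖ ≤ 1 := (IsUltrametricDist.norm_add_le_max 1 z).trans
    (max_le (by rw [norm_one]) (hz.trans hr))
  induction i with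
  | zero => simpa using (norm_nonneg z).trans hz
  | succ i ih =>
    have e : (1 + z) ^ (i + 1) - 1 = ((1 + z) ^ i - 1) * (1 + z) + z := by ring
    rw [e]
    refine (IsUltrametricDist.norm_add_le_max _ _).trans (max_le ?_ hz)
    rw [norm_mul]
    calc ‖(1 + z) ^ i - 1‖ * ‖1 + z‖ ≤ r * 1 :=
          mul_le_mul ih h1 (norm_nonneg _) ((norm_nonneg z).trans hz)
      _ = r := mul_one r

lemma pow_diff {r : ℝ} (hr : r ≤ 1) {z y : K} (hz : ‖z‖ ≤ r) (hy : ‖y‖ ≤ r) (n : ℕ) :
    ‖((1 + z) ^ n - 1 - n * z) - ((1 + y) ^ n - 1 - n * y)‖ ≤ r * ‖z - y‖ := by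
  have hr0 : 0 ≤ r := (norm_nonneg z).trans hz
  have h1 : ((1 + z) ^ n - 1 - n * z) - ((1 + y) ^ n - 1 - n * y) =
      (∑ i ∈ Finset.range n, ((1 + z) ^ i * (1 + y) ^ (n - 1 - i) - 1)) * (z - y) := by
    rw [Finset.sum_sub_distrib, sub_mul]
    have := geom_sum₂_mul (1 + z) (1 + y) n
    have e : (1 + z) - (1 + y) = z - y := by ring
    rw [e] at this
    rw [this]
    simp only [Finset.sum_const, Finset.card_range, nsmul_eq_mul, mul_one]
    ring
  rw [h1, norm_mul]
  refine mul_le_mul_of_nonneg_right ?_ (norm_nonneg _)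
  refine IsUltrametricDist.norm_sum_le_of_forall_le_of_nonneg hr0 (fun i _ => ?_)
  have e : (1 + z) ^ i * (1 + y) ^ (n - 1 - i) - 1 =
      ((1 + z) ^ i - 1) * ((1 + y) ^ (n - 1 - i) - 1) + ((1 + z) ^ i - 1) +
        ((1 + y) ^ (n - 1 - i) - 1) := by ring
  rw [e]
  have a := pow_near hr hz i
  have b := pow_near hr hy (n - 1 - i)
  refine (IsUltrametricDist.norm_add_le_max _ _).trans (max_le ?_ b)
  refine (IsUltrametricDist.norm_add_le_max _ _).trans (max_le ?_ a)
  rw [norm_mul]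
  calc ‖(1 + z) ^ i - 1‖ * ‖(1 + y) ^ (n - 1 - i) - 1‖ ≤ r * 1 :=
        mul_le_mul a (b.trans hr) (norm_nonneg _) hr0
    _ = r := mul_one r

/-- elements near `1` are `n`-th powers of elements near `1` -/
theorem exists_root_near [CompleteSpace K] {n : ℕ} (hn : (n : K) ≠ 0) {x : K}
    (hx : ‖x - 1‖ < ‖(n : K)‖ ^ 2) : ∃ y : K, y ^ n = x ∧ ‖y - 1‖ < ‖(n : K)‖ := by
  have hn0 : 0 < ‖(n : K)‖ := norm_pos_iff.2 hn
  have hn1 : ‖(n : K)‖ ≤ 1 := IsUltrametricDist.norm_natCast_le_one K n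
  set r : ℝ := ‖x - 1‖ / ‖(n : K)‖ with hr
  have hr0 : 0 ≤ r := div_nonneg (norm_nonneg _) hn0.le
  have hrn : r < ‖(n : K)‖ := by
    rw [hr, div_lt_iff₀ hn0, ← pow_two]; exact hx
  have hr1 : r ≤ 1 := (hrn.trans_le hn1).le
  let f : K → K := fun z => ((x - 1) - ((1 + z) ^ n - 1 - n * z)) / n
  have hf0 : f 0 = (x - 1) / n := by simp [f]
  have hfd : ∀ z y : K, ‖z‖ ≤ r → ‖y‖ ≤ r → ‖f z - f y‖ ≤ r / ‖(n : K)‖ * ‖z - y‖ := by
    intro z y hz hy
    have e : f z - f y =
        -((((1 + z) ^ n - 1 - n * z) - ((1 + y) ^ n - 1 - n * y)) / n) := by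
      simp only [f]; ring
    rw [e, norm_neg, norm_div, div_mul_eq_mul_div]
    exact div_le_div_of_nonneg_right (pow_diff hr1 hz hy n) hn0.le
  have hL : r / ‖(n : K)‖ < 1 := (div_lt_one hn0).2 hrn
  let s : Set K := Metric.closedBall 0 r
  have hmaps : Set.MapsTo f s s := by
    intro z hz
    rw [mem_closedBall_zero_iff] at hz ⊢
    have e : f z = f 0 + (f z - f 0) := by ring
    rw [e]
    refine (IsUltrametricDist.norm_add_le_max _ _).trans (max_le ?_ ?_)
    · rw [hf0, norm_div]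
    · refine (hfd z 0 hz (by rw [norm_zero]; exact hr0)).trans ?_
      rw [sub_zero]
      calc r / ‖(n : K)‖ * ‖z‖ ≤ 1 * r := mul_le_mul hL.le hz (norm_nonneg _) zero_le_one
        _ = r := one_mul r
  have hcontr : ContractingWith (Real.toNNReal (r / ‖(n : K)‖)) (hmaps.restrict f s s) := by
    refine ⟨?_, ?_⟩
    · rw [← NNReal.coe_lt_coe, Real.coe_toNNReal _ (div_nonneg hr0 hn0.le)]
      exact hL
    · apply LipschitzWith.of_dist_le_mul
      rintro ⟨z, hz⟩ ⟨y, hy⟩
      rw [mem_closedBall_zero_iff] at hz hy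
      rw [Subtype.dist_eq, Subtype.dist_eq, dist_eq_norm, dist_eq_norm,
        Real.coe_toNNReal _ (div_nonneg hr0 hn0.le)]
      exact hfd z y hz hy
  obtain ⟨z, hz, hfix, -⟩ := hcontr.exists_fixedPoint' (Metric.isClosed_closedBall.isComplete)
    hmaps (x := (0 : K)) (Metric.mem_closedBall_self hr0) (edist_ne_top _ _)
  rw [mem_closedBall_zero_iff] at hz
  refine ⟨1 + z, ?_, ?_⟩
  · have h1 : ((x - 1) - ((1 + z) ^ n - 1 - n * z)) / n = z := hfix
    rw [div_eq_iff hn] at h1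
    linear_combination -h1
  · rw [add_sub_cancel_left]
    exact hz.trans_lt hrn

end Root

section RootKK

variable {C : Type u} [NontriviallyNormedField C] [IsUltrametricDist C] [CompleteSpace C]
variable {L : Type w} [Field L] [Algebra (RatFunc C) L] [Algebra.IsAlgebraic (RatFunc C) L]
variable (w : Pt (RatFunc C) (F0 C) L)

theorem exists_root_kk {n : ℕ} (hn : (n : KK w) ≠ 0) {x : KK w}
    (hx : ‖x - 1‖ < ‖(n : KK w)‖ ^ 2) : ∃ y : KK w, y ^ n = x ∧ ‖y - 1‖ < ‖(n : KK w)‖ := by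
  let E := fieldOf w x
  have hu : IsUltrametricDist E := IsUltrametricDist.isUltrametricDist_of_forall_norm_add_le_max_norm
    (fun a b => IsUltrametricDist.norm_add_le_max (a : KK w) (b : KK w))
  let φ : E →+* KK w := algebraMap E (KK w)
  have hφn : φ (n : E) = (n : KK w) := map_natCast φ n
  have hφnorm : ∀ a : E, ‖φ a‖ = ‖a‖ := fun a => rfl
  let x' : E := ⟨x, mem_fieldOf w x⟩
  have hφx : φ x' = x := rfl
  obtain ⟨y, h1, h2⟩ := exists_root_near (K := E) (n := n) (x := x') (by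
    intro h; apply hn
    rw [← hφn, h, map_zero]) (by
    rw [← hφnorm, ← hφnorm, map_sub, map_one, hφn, hφx]; exact hx)
  refine ⟨φ y, ?_, ?_⟩
  · rw [← map_pow, h1]
    exact hφx
  · rw [← hφnorm, ← hφnorm, map_sub, map_one, hφn] at h2
    exact h2

end RootKK

section Smith

variable (G : Type*) [Group G] [TopologicalSpace G] [IsTopologicalGroup G] [CompactSpace G]
  [TotallyDisconnectedSpace G]
  (C : Type u) (kb : Type v) (N : Type w)
  [NontriviallyNormedField C] [IsUltrametricDist C] [CompleteSpace C] [IsAlgClosed C] [CharZero C]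
  [Field kb] [IsAlgClosed kb] [Field N] [Algebra kb C] [Algebra kb N] [TrdegOne kb N]
  [MulSemiringAction G kb] [MulSemiringAction G C] [MulSemiringAction G N]
  [NormAct G C] [OpenStab G N] [Equi G kb C] [Equi G kb N]
  (T : N) [Fact (Transcendental kb T)] [FixedT G T]

/-- a pro-`q` group which fixes a `V`-vertex and no edge fixes only one `V`-vertex -/
theorem fixedV_unique {q : ℕ} [hq : Fact q.Prime]
    (hcl : TopClosed (RatFunc C) (F1 C) (F2 C) (NCT C kb N T) q)
    (hpro : ∀ U : Subgroup G, U.Normal → IsOpen (U : Set G) → ∃ n : ℕ, U.index = q ^ n)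
    (hE : ∀ e : ET C kb N T, ¬ ∀ g : G, g • e = e) {v v' : VT C kb N T}
    (hv : ∀ g : G, g • v = v) (hv' : ∀ g : G, g • v' = v') : v = v' := by
  have : NeZero q := ⟨hq.out.ne_zero⟩
  have hex := graphExact_NCT C kb N T q hcl
  have hsm := P025H970.smith_pro q (P := G) (continuous_toV C kb N T) (continuous_toD C kb N T)
    (toV_smul G C kb N T) (toD_smul G C kb N T) (by
      refine ⟨hex.nonempty, fun f g hf hg hfg => ?_⟩
      exact hex.const ⟨f, hf⟩ ⟨g, hg⟩ hfg)
    {U : Subgroup G | U.Normal ∧ IsOpen (U : Set G)} (by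
      intro O hO
      obtain ⟨O', hO', hO'o, h1⟩ := mem_nhds_iff.1 hO
      obtain ⟨H, hH⟩ := ProfiniteGrp.exist_openNormalSubgroup_sub_open_nhds_of_one hO'o h1
      exact ⟨H.toSubgroup, ⟨H.isNormal', H.isOpen'⟩, hH.trans hO'⟩) (by
      rintro U ⟨h1, h2⟩
      exact ⟨h1, U.isClosed_of_isOpen h2, h2.mem_nhds U.one_mem⟩) (by
      rintro U ⟨h1, h2⟩
      exact hpro U h1 h2) (by
      rintro U ⟨h1, h2⟩ h hh hU
      obtain ⟨α, β, hαβ⟩ := hex.surj ⟨h, hh⟩
      have hαβ' : ∀ e, h e = α (toV C kb N T e) - β (toD C kb N T e) := hαβ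
      have key : ∀ u ∈ U, (∀ x, α (u • x) = α x) ∧ ∀ y, β (u • y) = β y := by
        intro u hu
        obtain ⟨c, hc⟩ := exists_obst hex (toV_smul G C kb N T) (toD_smul G C kb N T)
          (α := α) (β := β) (g := u) (fun e => by rw [← hαβ', ← hαβ']; exact hU u hu e)
        have h0 := hc.eq_zero_of_fix_left (hv u)
        subst h0
        exact ⟨fun x => by rw [hc.1 x, add_zero], fun y => by rw [hc.2 y, add_zero]⟩
      exact ⟨α, β, α.isLocallyConstant, β.isLocallyConstant, fun u hu => (key u hu).1,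
        fun u hu => (key u hu).2, hαβ'⟩)
  by_contra hne
  obtain ⟨f, hf, h1, h0⟩ := P025H505.exists_sep q hne
  obtain ⟨c, hc1, -⟩ := hsm.2 f (fun _ => 0) hf (IsLocallyConstant.const 0)
    (fun e' he' => absurd he' (hE e'))
  have a := hc1 v hv
  have b := hc1 v' hv'
  rw [h1] at a
  rw [h0] at b
  exact one_ne_zero (a.trans b.symm)

end Smith

end P025H63
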