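import Vale.Agent.P025.R2.H63.UniqA
import Vale.Agent.P025.R2.H444.Uniq

/-! # The data of a fixed edge of the tree of `T` -/

set_option linter.unusedSectionVars false

namespace P025H63

open scoped TensorProduct
open Polynomial P025H373 P025H544 P025H505 P025H720 P025H444

universe u v w

variable {G : Type*} [Group G] [TopologicalSpace G]
  {C : Type u} {kb : Type v} {N : Type w}
  [NontriviallyNormedField C] [IsUltrametricDist C] [CompleteSpace C] [IsAlgClosed C] [CharZero C]
  [Field kb] [IsAlgClosed kb] [Field N] [Algebra kb C] [Algebra kb N] [TrdegOne kb N]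
  [MulSemiringAction G kb] [MulSemiringAction G C] [MulSemiringAction G N]
  [NormAct G C] [Equi G kb C] [Equi G kb N]
  {T : N} [Fact (Transcendental kb T)] [FixedT G T]

theorem isNrm_norm {K : Type*} [NormedField K] [IsUltrametricDist K] :
    IsNrm (fun x : K => ‖x‖) where
  zero := norm_zero
  one := norm_one
  mul := norm_mul
  add := IsUltrametricDist.norm_add_le_max
  pos := fun _ h => norm_pos_iff.2 h

/-- the data of a fixed edge -/
noncomputable def edgeData (w : ET C kb N T) [FixedT G w] : EdgeData G C kb N (KK w) where
  nrm := fun x => ‖x‖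
  isNrm := isNrm_norm
  act := fun g => MulSemiringAction.toRingHom G (KK w) g
  nrm_act := fun g x => norm_smul_kk w g x
  emb := nToKK w
  emb_smul := fun g x => (smul_nToKK w g x).symm
  nrm_const := fun c => by
    have h1 : nToKK w (algebraMap kb N c) = cToKK w (algebraMap kb C c) := by
      rw [cToKK_eq]
      show algebraMap (NCT C kb N T) (KK w) (algebraMap N (NCT C kb N T) (algebraMap kb N c)) = _
      rw [← IsScalarTower.algebraMap_apply kb C (NCT C kb N T),
        ← IsScalarTower.algebraMap_apply kb N (NCT C kb N T)]
    rw [h1, norm_cToKK]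
  ev := fun T1 _ h => retHom w T1 h
  ev_emb := fun T1 _ h x => retHom_one_tmul w T1 h _
  ev_smul := fun T1 _ _ h g z => retHom_smul w T1 h g z

end P025H63
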