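import Vale.Agent.P025.R2.H855.Defs

/-! # Partial characters from a rational place -/

namespace P025H63

open P025H641 P025H855

universe u v

section lead

variable {k : Type u} {E : Type v} [Field k] [Field E] [Algebra k E] {V : ValuationSubring E}

/-- `c` is the leading coefficient and `n` the order of `f` -/
def Ld (k : Type u) {E : Type v} [Field k] [Field E] [Algebra k E] (V : ValuationSubring E)
    (π f : E) (n : ℤ) (c : k) : Prop :=
  c ≠ 0 ∧ V.valuation (f / π ^ n - algebraMap k E c) < 1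

lemma val_const (hc : ∀ c : k, algebraMap k E c ∈ V) {c : k} (h0 : c ≠ 0) :
    V.valuation (algebraMap k E c) = 1 := by
  apply le_antisymm ((V.valuation_le_one_iff _).2 (hc c))
  have h1 := (V.valuation_le_one_iff _).2 (hc c⁻¹)
  rw [map_inv₀, map_inv₀] at h1
  have h2 : V.valuation (algebraMap k E c) ≠ 0 := by
    rw [Ne, map_eq_zero, map_eq_zero]; exact h0
  exact (inv_le_one₀ (zero_lt_iff.2 h2)).1 h1

lemma const_eq_zero (hc : ∀ c : k, algebraMap k E c ∈ V) {c : k}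
    (h : V.valuation (algebraMap k E c) < 1) : c = 0 := by
  by_contra h0
  exact h.ne (val_const hc h0)

lemma Ld.val_unit (hc : ∀ c : k, algebraMap k E c ∈ V) {π f : E} {n : ℤ} {c : k}
    (h : Ld k V π f n c) : V.valuation (f / π ^ n) = 1 := by
  have h1 := val_const hc h.1
  have h2 : f / π ^ n = algebraMap k E c + (f / π ^ n - algebraMap k E c) := by ring
  rw [h2, Valuation.map_add_eq_of_lt_left _ (by rw [h1]; exact h.2), h1]

lemma Ld.ne_zero (hc : ∀ c : k, algebraMap k E c ∈ V) {π f : E} {n : ℤ} {c : k}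
    (h : Ld k V π f n c) : f ≠ 0 := by
  rintro rfl
  have h1 := h.val_unit hc
  rw [zero_div, map_zero] at h1
  exact zero_ne_one h1

lemma Ld.unique (hc : ∀ c : k, algebraMap k E c ∈ V) {π f : E} (hπ0 : π ≠ 0)
    (hπ : V.valuation π < 1) {n m : ℤ} {c d : k} (h : Ld k V π f n c) (h' : Ld k V π f m d) :
    n = m ∧ c = d := by
  have hv0 : 0 < V.valuation π := zero_lt_iff.2 (by rw [Ne, map_eq_zero]; exact hπ0)
  have key : ∀ {n : ℤ} {c : k}, Ld k V π f n c → V.valuation f = V.valuation π ^ n := by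
    intro n c h
    have h1 := h.val_unit hc
    rw [map_div₀, map_zpow₀] at h1
    exact (div_eq_one_iff_eq (zpow_ne_zero _ hv0.ne')).1 h1
  have hnm : n = m := by
    have h1 := (key h).symm.trans (key h')
    exact (zpow_right_inj₀ hv0 hπ.ne).1 h1
  subst hnm
  refine ⟨rfl, ?_⟩
  have h1 : V.valuation (algebraMap k E (c - d)) < 1 := by
    have h2 : algebraMap k E (c - d)
        = (f / π ^ n - algebraMap k E d) - (f / π ^ n - algebraMap k E c) := by
      rw [map_sub]; ring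
    rw [h2]
    exact (Valuation.map_sub _ _ _).trans_lt (max_lt h'.2 h.2)
  exact sub_eq_zero.1 (const_eq_zero hc h1)

lemma Ld.mul (hc : ∀ c : k, algebraMap k E c ∈ V) {π f g : E} (hπ0 : π ≠ 0) {n m : ℤ} {c d : k}
    (h : Ld k V π f n c) (h' : Ld k V π g m d) : Ld k V π (f * g) (n + m) (c * d) := by
  refine ⟨mul_ne_zero h.1 h'.1, ?_⟩
  have h2 : f * g / π ^ (n + m) - algebraMap k E (c * d)
      = (f / π ^ n - algebraMap k E c) * (g / π ^ m)
        + algebraMap k E c * (g / π ^ m - algebraMap k E d) := by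
    rw [zpow_add₀ hπ0, map_mul]
    field_simp
    ring
  rw [h2]
  refine (Valuation.map_add _ _ _).trans_lt (max_lt ?_ ?_)
  · rw [map_mul, h'.val_unit hc, mul_one]; exact h.2
  · rw [map_mul, val_const hc h.1, one_mul]; exact h'.2

lemma Ld.const {π : E} {c : k} (h0 : c ≠ 0) : Ld k V π (algebraMap k E c) 0 c := by
  refine ⟨h0, ?_⟩
  rw [zpow_zero, div_one, sub_self, map_zero]
  exact zero_lt_one

lemma Ld.of_near {π f : E} {a b : k} (hab : a ≠ b)
    (h : V.valuation (f - algebraMap k E b) < 1) : Ld k V π (f - algebraMap k E a) 0 (b - a) := by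
  refine ⟨sub_ne_zero.2 hab.symm, ?_⟩
  have : (f - algebraMap k E a) / π ^ (0 : ℤ) - algebraMap k E (b - a)
      = f - algebraMap k E b := by
    rw [zpow_zero, div_one, map_sub]; ring
  rwa [this]

lemma Ld.of_pole (hc : ∀ c : k, algebraMap k E c ∈ V) {π f : E}
    (hπ : V.valuation π < 1) {n : ℤ} {c : k} (h : Ld k V π f n c)
    (hn : n < 0) (a : k) : Ld k V π (f - algebraMap k E a) n c := by
  refine ⟨h.1, ?_⟩
  have h2 : (f - algebraMap k E a) / π ^ n - algebraMap k E c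
      = (f / π ^ n - algebraMap k E c) - algebraMap k E a * π ^ (-n) := by
    rw [zpow_neg, sub_div, div_eq_mul_inv (algebraMap k E a)]
    ring
  rw [h2]
  refine (Valuation.map_sub _ _ _).trans_lt (max_lt h.2 ?_)
  rw [map_mul, map_zpow₀]
  obtain ⟨m, hm⟩ : ∃ m : ℕ, -n = (m + 1 : ℕ) := ⟨(-n).toNat - 1, by omega⟩
  rw [hm, zpow_natCast]
  calc V.valuation (algebraMap k E a) * V.valuation π ^ (m + 1)
      ≤ 1 * V.valuation π ^ (m + 1) :=
        mul_le_mul_left ((V.valuation_le_one_iff _).2 (hc a)) _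
    _ = V.valuation π ^ (m + 1) := one_mul _
    _ < 1 := pow_lt_one₀ zero_le hπ (Nat.succ_ne_zero m)

/-- the order of an element with a pole is negative -/
lemma Ld.neg_iff (hc : ∀ c : k, algebraMap k E c ∈ V) {π f : E} (hπ0 : π ≠ 0)
    (hπ : V.valuation π < 1) {n : ℤ} {c : k} (h : Ld k V π f n c) :
    n < 0 ↔ f ∉ V := by
  have hv0 : 0 < V.valuation π := zero_lt_iff.2 (by rw [Ne, map_eq_zero]; exact hπ0)
  have key : V.valuation f = V.valuation π ^ n := by
    have h1 := h.val_unit hc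
    rw [map_div₀, map_zpow₀] at h1
    exact (div_eq_one_iff_eq (zpow_ne_zero _ hv0.ne')).1 h1
  rw [← V.valuation_le_one_iff, key, not_le]
  constructor
  · intro hn
    exact one_lt_zpow_of_neg₀ hv0 hπ hn
  · intro h1
    by_contra hn
    push Not at hn
    obtain ⟨m, rfl⟩ := Int.eq_ofNat_of_zero_le hn
    rw [zpow_natCast] at h1
    exact absurd h1 (not_lt.2 (pow_le_one₀ zero_le hπ.le))

lemma Ld.pos (hc : ∀ c : k, algebraMap k E c ∈ V) {π f : E} (hπ0 : π ≠ 0)
    (hπ : V.valuation π < 1) {n : ℤ} {c : k} (h : Ld k V π f n c)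
    (hf : V.valuation f < 1) : 0 < n := by
  have hv0 : 0 < V.valuation π := zero_lt_iff.2 (by rw [Ne, map_eq_zero]; exact hπ0)
  have key : V.valuation f = V.valuation π ^ n := by
    have h1 := h.val_unit hc
    rw [map_div₀, map_zpow₀] at h1
    exact (div_eq_one_iff_eq (zpow_ne_zero _ hv0.ne')).1 h1
  by_contra hn
  push Not at hn
  rw [key] at hf
  rcases hn.eq_or_lt with rfl | hn
  · rw [zpow_zero] at hf; exact lt_irrefl _ hf
  · exact absurd hf (not_lt.2 (one_lt_zpow_of_neg₀ hv0 hπ hn).le)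

/-- existence of leading coefficients at a rational place -/
lemma exists_lead (hV : IsRatPlace k E V) : ∃ π : E, π ≠ 0 ∧ V.valuation π < 1 ∧
    ∀ f : E, f ≠ 0 → ∃ (n : ℤ) (c : k), Ld k V π f n c := by
  have := hV.discrete
  obtain ⟨ϖ, hϖ⟩ := IsDiscreteValuationRing.exists_irreducible V
  have hπ0 : (ϖ : E) ≠ 0 := by
    rw [Ne, ZeroMemClass.coe_eq_zero]; exact hϖ.ne_zero
  refine ⟨ϖ, hπ0, ?_, ?_⟩
  · rw [← V.valuation_lt_one_iff]
    exact (IsLocalRing.mem_maximalIdeal _).2 hϖ.not_isUnit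
  · have hc0 : ∀ x : E, V.valuation x = 1 → ∃ c : k, c ≠ 0 ∧
        V.valuation (x - algebraMap k E c) < 1 := by
      intro x hx
      obtain ⟨c, hc⟩ := hV.residue x ((V.valuation_le_one_iff _).1 hx.le)
      refine ⟨c, ?_, hc⟩
      rintro rfl
      rw [map_zero, sub_zero, hx] at hc
      exact lt_irrefl _ hc
    have hint : ∀ x : V, x ≠ 0 → ∃ n : ℕ, V.valuation ((x : E) / (ϖ : E) ^ n) = 1 := by
      intro x hx
      obtain ⟨n, u, hu⟩ := IsDiscreteValuationRing.eq_unit_mul_pow_irreducible hx hϖ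
      refine ⟨n, ?_⟩
      have h1 : (x : E) / (ϖ : E) ^ n = ((u : V) : E) := by
        rw [hu, div_eq_iff (pow_ne_zero _ hπ0)]
        push_cast
        rfl
      rw [h1]
      exact (V.valuation_eq_one_iff _).1 u.isUnit
    intro f hf
    rcases V.mem_or_inv_mem f with h | h
    · obtain ⟨n, hn⟩ := hint ⟨f, h⟩ (by
        intro h0; exact hf (congrArg Subtype.val h0))
      obtain ⟨c, hc, h1⟩ := hc0 _ hn
      exact ⟨n, c, hc, by rw [zpow_natCast]; exact h1⟩
    · obtain ⟨n, hn⟩ := hint ⟨f⁻¹, h⟩ (by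
        intro h0; exact inv_ne_zero hf (congrArg Subtype.val h0))
      have h2 : V.valuation (f / (ϖ : E) ^ (-(n : ℤ))) = 1 := by
        have h3 : f / (ϖ : E) ^ (-(n : ℤ)) = (f⁻¹ / (ϖ : E) ^ n)⁻¹ := by
          rw [zpow_neg, zpow_natCast, inv_div, div_inv_eq_mul, div_inv_eq_mul, mul_comm]
        rw [h3, map_inv₀]
        rw [show V.valuation (f⁻¹ / (ϖ : E) ^ n) = 1 from hn, inv_one]
      obtain ⟨c, hc, h1⟩ := hc0 _ h2
      exact ⟨-n, c, hc, h1⟩

end lead

section main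

variable {p : ℕ} [Fact p.Prime] {k : Type u} [Field k] [Algebra ℚ_[p] k]
  [FiniteDimensional ℚ_[p] k] {E : Type v} [Field E] [Algebra k E]

/-- **Partial characters from a rational place.** -/
theorem partChar_of_ratPlace {ζ : k} (hζ : IsPrimitiveRoot ζ p) {V : ValuationSubring E}
    (hV : IsRatPlace k E V) (S : Finset E) : ∃ χ : E → Cl p k, PartChar p k S χ := by
  classical
  have hpp : p.Prime := Fact.out
  let inst1 : NontriviallyNormedField k := spectralNorm.nontriviallyNormedField ℚ_[p] k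
  have hu : IsUltrametricDist k :=
    IsUltrametricDist.isUltrametricDist_of_isNonarchimedean_norm isNonarchimedean_spectralNorm
  have hn : ∀ x : ℚ_[p], ‖algebraMap ℚ_[p] k x‖ = ‖x‖ := fun x => spectralNorm_extends x
  have hproper : ProperSpace k := by
    let _ : NormedAlgebra ℚ_[p] k := spectralNorm.normedAlgebra ℚ_[p] k
    exact FiniteDimensional.proper ℚ_[p] k
  have hpR : (1 : ℝ) < p := by exact_mod_cast hpp.one_lt
  have hpR0 : (0 : ℝ) < p := by linarith
  have hpk := norm_natCast_p (k := k) hn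
  have hpk1 : ‖(p : k)‖ < 1 := by
    rw [hpk]
    exact inv_lt_one_of_one_lt₀ hpR
  have hpk0 : (p : k) ≠ 0 := by
    rw [← norm_pos_iff, hpk, inv_pos]
    exact hpR0
  obtain ⟨R⟩ := exists_ram hpk1 hpk0 hζ
  have near : ∀ x δ : k, x ≠ 0 → ‖δ‖ ≤ ‖x‖ * ((p : ℝ) ^ 3)⁻¹ →
      x + δ ≠ 0 ∧ clsm p (x + δ) = clsm p x := fun x δ hx hδ => R.clsm_near hn x δ hx hδ
  have hcm := hV.const_mem
  obtain ⟨π, hπ0, hπ, hlead⟩ := exists_lead hV
  choose! n c hL using hlead
  -- the finite set of constants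
  set D : Finset k := ((S ×ˢ S).image (fun q => q.1 - q.2)).preimage (algebraMap k E)
    (algebraMap k E).injective.injOn with hD
  set T : Finset k := (S.image c ∪ D).filter (fun x => x ≠ 0) with hT
  have hcT : ∀ g ∈ S, g ≠ 0 → c g ∈ T := fun g hg hg0 =>
    Finset.mem_filter.2 ⟨Finset.mem_union_left _ (Finset.mem_image_of_mem _ hg), (hL g hg0).1⟩
  have hdT : ∀ f ∈ S, ∀ g ∈ S, ∀ d : k, d ≠ 0 → f - g = algebraMap k E d → d ∈ T := by
    intro f hf g hg d hd hfg
    refine Finset.mem_filter.2 ⟨Finset.mem_union_right _ ?_, hd⟩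
    rw [hD, Finset.mem_preimage]
    exact Finset.mem_image.2 ⟨(f, g), Finset.mem_product.2 ⟨hf, hg⟩, hfg⟩
  have hT0 : ∀ x ∈ T, x ≠ 0 := fun x hx => (Finset.mem_filter.1 hx).2
  obtain ⟨N, hN⟩ : ∃ N : ℕ, ∀ x ∈ T, ∀ y ∈ T, ‖x‖ * (p : ℝ) ^ 3 ≤ ‖y‖ * (p : ℝ) ^ N := by
    have h1 : ∀ x ∈ T, ∀ y ∈ T, ∀ᶠ N : ℕ in Filter.atTop,
        ‖x‖ * (p : ℝ) ^ 3 ≤ ‖y‖ * (p : ℝ) ^ N := by
      intro x _ y hy
      have h2 : 0 < ‖y‖ := norm_pos_iff.2 (hT0 y hy)
      filter_upwards [(tendsto_pow_atTop_atTop_of_one_lt hpR).eventually_ge_atTop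
        (‖x‖ * (p : ℝ) ^ 3 / ‖y‖)] with N hN
      rw [div_le_iff₀ h2] at hN
      linarith
    have h2 : ∀ᶠ N : ℕ in Filter.atTop, ∀ x ∈ T, ∀ y ∈ T,
        ‖x‖ * (p : ℝ) ^ 3 ≤ ‖y‖ * (p : ℝ) ^ N := by
      rw [Filter.eventually_all_finset]
      intro x hx
      rw [Filter.eventually_all_finset]
      exact h1 x hx
    exact h2.exists
  set t : k := (p : k) ^ N with ht
  have ht0 : t ≠ 0 := pow_ne_zero _ hpk0
  have htn : ‖t‖ = ((p : ℝ) ^ N)⁻¹ := by rw [ht, norm_pow, hpk, inv_pow]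
  have htpos : 0 < ‖t‖ := norm_pos_iff.2 ht0
  have ht1 : ‖t‖ ≤ 1 := by
    rw [htn]; exact inv_le_one_of_one_le₀ (one_le_pow₀ hpR.le)
  have hp3 : (0 : ℝ) < (p : ℝ) ^ 3 := pow_pos hpR0 3
  have hpN : (0 : ℝ) < (p : ℝ) ^ N := pow_pos hpR0 N
  -- small and large
  have small : ∀ x ∈ T, ∀ y ∈ T, ∀ m : ℤ, 0 < m →
      ‖x * t ^ m‖ ≤ ‖y‖ * ((p : ℝ) ^ 3)⁻¹ := by
    intro x hx y hy m hm
    obtain ⟨j, rfl⟩ : ∃ j : ℕ, m = (j + 1 : ℕ) := ⟨m.toNat - 1, by omega⟩
    rw [zpow_natCast, norm_mul, norm_pow]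
    have h1 : ‖t‖ ^ (j + 1) ≤ ‖t‖ := by
      calc ‖t‖ ^ (j + 1) ≤ ‖t‖ ^ 1 := pow_le_pow_of_le_one htpos.le ht1 (by omega)
        _ = ‖t‖ := pow_one _
    rw [← div_eq_mul_inv, le_div_iff₀ hp3]
    calc ‖x‖ * ‖t‖ ^ (j + 1) * (p : ℝ) ^ 3
        ≤ ‖x‖ * ‖t‖ * (p : ℝ) ^ 3 := by gcongr
      _ = ‖x‖ * (p : ℝ) ^ 3 * ‖t‖ := by ring
      _ ≤ ‖y‖ * (p : ℝ) ^ N * ‖t‖ := by gcongr ?_ * ‖t‖; exact hN x hx y hy
      _ = ‖y‖ := by rw [htn]; field_simp
  have large : ∀ x ∈ T, ∀ y ∈ T, ∀ m : ℤ, m < 0 →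
      ‖y‖ ≤ ‖x * t ^ m‖ * ((p : ℝ) ^ 3)⁻¹ := by
    intro x hx y hy m hm
    obtain ⟨j, hj⟩ : ∃ j : ℕ, m = -((j + 1 : ℕ) : ℤ) := ⟨(-m).toNat - 1, by omega⟩
    subst hj
    have h1 := small y hy x hx ((j + 1 : ℕ) : ℤ) (by positivity)
    rw [norm_mul, norm_zpow] at h1
    rw [norm_mul, norm_zpow, zpow_neg]
    have h2 : 0 < ‖t‖ ^ ((j + 1 : ℕ) : ℤ) := zpow_pos htpos _
    rw [← le_div_iff₀ h2] at h1
    calc ‖y‖ ≤ _ := h1
      _ = _ := by ring
  refine ⟨fun f => clsm p (c f * t ^ (n f)), ?_, ?_, ?_⟩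
  · intro f _ g _ hf0 hg0
    have h1 := Ld.mul hcm hπ0 (hL f hf0) (hL g hg0)
    obtain ⟨h2, h3⟩ := Ld.unique hcm hπ0 hπ (hL (f * g) (mul_ne_zero hf0 hg0)) h1
    show clsm p (c (f * g) * t ^ n (f * g)) = clsm p (c f * t ^ n f) + clsm p (c g * t ^ n g)
    rw [h2, h3, ← clsm_mul _ _ (mul_ne_zero (hL f hf0).1 (zpow_ne_zero _ ht0))
      (mul_ne_zero (hL g hg0).1 (zpow_ne_zero _ ht0)), zpow_add₀ ht0]
    congr 1
    ring
  · intro a ha
    have h0 : algebraMap k E a ≠ 0 := by rw [Ne, map_eq_zero]; exact ha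
    obtain ⟨h2, h3⟩ := Ld.unique hcm hπ0 hπ (hL _ h0) (Ld.const (V := V) (π := π) ha)
    show clsm p (c (algebraMap k E a) * t ^ n (algebraMap k E a)) = clsm p a
    rw [h2, h3, zpow_zero, mul_one]
  · intro f hf r A₀ A hA hfS
    have hf0 : ∀ a : k, f - algebraMap k E a ≠ 0 := by
      intro a h
      exact hf ⟨a, (sub_eq_zero.1 h).symm⟩
    have hfS' : ∀ a ∈ A₀, f - algebraMap k E a ∈ S := fun a ha => hfS a (hA.subset ha)
    show ∃ z, ∀ a ∈ A₀, z ≠ a ∧
      clsm p (c (f - algebraMap k E a) * t ^ n (f - algebraMap k E a)) = clsm p (z - a)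
    by_cases hfV : f ∈ V
    · obtain ⟨b, hb⟩ := hV.residue f hfV
      by_cases hbA : b ∈ A₀
      · set m := n (f - algebraMap k E b) with hm
        set e := c (f - algebraMap k E b) with he
        have hLb := hL _ (hf0 b)
        have hmpos : 0 < m := Ld.pos hcm hπ0 hπ hLb hb
        have heT : e ∈ T := hcT _ (hfS' b hbA) (hf0 b)
        have he0 : e * t ^ m ≠ 0 := mul_ne_zero (hT0 _ heT) (zpow_ne_zero _ ht0)
        refine ⟨b + e * t ^ m, fun a ha => ?_⟩
        by_cases hab : a = b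
        · subst hab
          refine ⟨fun h => he0 (by simpa using h), ?_⟩
          rw [add_sub_cancel_left]
        · have h1 : b - a ∈ T := by
            refine hdT _ (hfS' a ha) _ (hfS' b hbA) _ (sub_ne_zero.2 (Ne.symm hab)) ?_
            rw [map_sub]; ring
          obtain ⟨h2, h3⟩ := near (b - a) (e * t ^ m) (hT0 _ h1) (small e heT _ h1 m hmpos)
          have h4 : b + e * t ^ m - a = b - a + e * t ^ m := by ring
          rw [← h4] at h2 h3
          refine ⟨sub_ne_zero.1 h2, ?_⟩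
          obtain ⟨h5, h6⟩ := Ld.unique hcm hπ0 hπ (hL _ (hf0 a)) (Ld.of_near (π := π) hab hb)
          rw [h3, h5, h6, zpow_zero, mul_one]
      · refine ⟨b, fun a ha => ?_⟩
        have hab : a ≠ b := fun h => hbA (h ▸ ha)
        refine ⟨hab.symm, ?_⟩
        obtain ⟨h5, h6⟩ := Ld.unique hcm hπ0 hπ (hL _ (hf0 a)) (Ld.of_near (π := π) hab hb)
        rw [h5, h6, zpow_zero, mul_one]
    · rcases A₀.eq_empty_or_nonempty with hA0 | ⟨a₁, ha₁⟩
      · exact ⟨0, by rw [hA0]; simp⟩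
      · set m := n (f - algebraMap k E a₁) with hm
        set e := c (f - algebraMap k E a₁) with he
        have hLb := hL _ (hf0 a₁)
        have hgV : f - algebraMap k E a₁ ∉ V := by
          intro h
          apply hfV
          have h1 := V.add_mem _ _ h (hcm a₁)
          rwa [sub_add_cancel] at h1
        have hmneg : m < 0 := (Ld.neg_iff hcm hπ0 hπ hLb).2 hgV
        have heT : e ∈ T := hcT _ (hfS' a₁ ha₁) (hf0 a₁)
        have he0 : e * t ^ m ≠ 0 := mul_ne_zero (hT0 _ heT) (zpow_ne_zero _ ht0)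
        refine ⟨a₁ + e * t ^ m, fun a ha => ?_⟩
        by_cases hab : a = a₁
        · subst hab
          refine ⟨fun h => he0 (by simpa using h), ?_⟩
          rw [add_sub_cancel_left]
        · have h1 : a₁ - a ∈ T := by
            refine hdT _ (hfS' a ha) _ (hfS' a₁ ha₁) _ (sub_ne_zero.2 (Ne.symm hab)) ?_
            rw [map_sub]; ring
          obtain ⟨h2, h3⟩ := near (e * t ^ m) (a₁ - a) he0 (large e heT _ h1 m hmneg)
          have h4 : a₁ + e * t ^ m - a = e * t ^ m + (a₁ - a) := by ring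
          rw [← h4] at h2 h3
          refine ⟨sub_ne_zero.1 h2, ?_⟩
          have h7 : Ld k V π (f - algebraMap k E a) m e := by
            have h8 := Ld.of_pole hcm hπ hLb hmneg (a - a₁)
            have h9 : f - algebraMap k E a₁ - algebraMap k E (a - a₁)
                = f - algebraMap k E a := by rw [map_sub]; ring
            rwa [h9] at h8
          obtain ⟨h5, h6⟩ := Ld.unique hcm hπ0 hπ (hL _ (hf0 a)) h7
          rw [h3, h5, h6]

end main

end P025H63
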