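import Vale.Agent.P025.R2.H63.Stab
import Vale.Agent.P025.R2.H937.Vert

/-!
P025, A side, row 3 (helper63): at most one place of `N` over the constants is stable under `G`.
-/

set_option linter.unusedSectionVars false

namespace P025H63

open scoped Pointwise
open P025H373 P025H544 P025H505 P025H720 P025H937

universe u v w x

section rows

variable {C : Type u} {kb : Type v} {N : Type w} [NontriviallyNormedField C] [IsUltrametricDist C]
  [CompleteSpace C] [IsAlgClosed C] [CharZero C] [Field kb] [IsAlgClosed kb]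
  [Field N] [Algebra kb C] [Algebra kb N] [TrdegOne kb N]
  {G : Type x} [Group G] [TopologicalSpace G] [IsTopologicalGroup G]
  [MulSemiringAction G kb] [MulSemiringAction G C]
  [MulSemiringAction G N] [NormAct G C] [Equi G kb C] [Equi G kb N]

/-- ROW 2d -/
theorem row2d (T : N) [Fact (Transcendental kb T)] [FixedT G T] (g : G)
    (d : DT C kb N T) (W : ValuationSubring N) (h : Cont d W) : Cont (g • d) (g • W) :=
  h.smul g fun _ => (ValuationSubring.mem_pointwise_smul_iff_inv_smul_mem).symm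

variable [CompactSpace G] [OpenStab G N]

/-- ROW 3 -/
theorem row3 {c : kb} (hc : ∀ g : G, g • c = c) (hc1 : 1 < ‖algebraMap kb C c‖)
    (h : ∀ (T : N) [Fact (Transcendental kb T)] [FixedT G T] (y y' : DT C kb N T),
        (∀ s : G, s • y = y) → (∀ s : G, s • y' = y') → y = y')
    (W₁ W₂ : ValuationSubring N) (h₁ : ∀ c : kb, algebraMap kb N c ∈ W₁)
    (h₂ : ∀ c : kb, algebraMap kb N c ∈ W₂) (ht₁ : W₁ ≠ ⊤) (ht₂ : W₂ ≠ ⊤)
    (hs₁ : ∀ σ : G, ∀ x ∈ W₁, σ • x ∈ W₁) (hs₂ : ∀ σ : G, ∀ x ∈ W₂, σ • x ∈ W₂) :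
    W₁ = W₂ :=
  uniqueStable hc hc1 (fun _ _ W hW hT => exists_vertex W hW hT)
    (fun _ _ _ _ _ _ _ hd hd' => cont_unique hd hd') h W₁ W₂ h₁ h₂ ht₁ ht₂ hs₁ hs₂

end rows

section padic

variable (p : ℕ) [Fact p.Prime] {k : Type x} [Field k] [Algebra ℚ_[p] k]
  {C : Type u} {kb : Type v} {N : Type w} [NontriviallyNormedField C] [IsUltrametricDist C]
  [CompleteSpace C] [IsAlgClosed C] [CharZero C] [Field kb] [IsAlgClosed kb]
  [Algebra ℚ_[p] kb] [Algebra.IsAlgebraic ℚ_[p] kb] [Algebra k kb] [IsScalarTower ℚ_[p] k kb]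
  [Algebra.IsAlgebraic k kb]
  [Field N] [Algebra kb C] [Algebra kb N] [TrdegOne kb N]
  [MulSemiringAction Gal(kb/k) C] [MulSemiringAction Gal(kb/k) N]
  [NormAct Gal(kb/k) C] [OpenStab Gal(kb/k) N] [Equi Gal(kb/k) kb C] [Equi Gal(kb/k) kb N]

/-- ROW 3 for a `p`-adic field -/
theorem row3_padic [CompactSpace Gal(kb/k)]
    (hnorm : ∀ x : kb, ‖algebraMap kb C x‖ = spectralNorm ℚ_[p] kb x)
    (h : ∀ (T : N) [Fact (Transcendental kb T)] [FixedT Gal(kb/k) T] (y y' : DT C kb N T),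
        (∀ s : Gal(kb/k), s • y = y) → (∀ s : Gal(kb/k), s • y' = y') → y = y')
    (W₁ W₂ : ValuationSubring N) (h₁ : ∀ c : kb, algebraMap kb N c ∈ W₁)
    (h₂ : ∀ c : kb, algebraMap kb N c ∈ W₂) (ht₁ : W₁ ≠ ⊤) (ht₂ : W₂ ≠ ⊤)
    (hs₁ : ∀ σ : Gal(kb/k), ∀ x ∈ W₁, σ • x ∈ W₁) (hs₂ : ∀ σ : Gal(kb/k), ∀ x ∈ W₂, σ • x ∈ W₂) :
    W₁ = W₂ := by
  refine row3 (C := C) (G := Gal(kb/k)) (c := algebraMap ℚ_[p] kb (p : ℚ_[p])⁻¹) ?_ ?_ h W₁ W₂
    h₁ h₂ ht₁ ht₂ hs₁ hs₂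
  · intro g
    rw [IsScalarTower.algebraMap_apply ℚ_[p] k kb]
    exact g.commutes _
  · rw [hnorm, spectralNorm_extends, norm_inv]
    have h1 : 0 < ‖(p : ℚ_[p])‖ := by
      rw [norm_pos_iff]
      exact_mod_cast (Fact.out : p.Prime).ne_zero
    exact (one_lt_inv₀ h1).2 Padic.norm_p_lt_one

end padic

end P025H63
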