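import Vale.Agent.P025.R2.H63.StabB

/-!
P025, A-END, item (3) (helper63): uniqueness of the stable place.
-/

set_option linter.unusedSectionVars false

namespace P025H63

open scoped TensorProduct
open Polynomial P025H373 P025H544 P025H505 P025H720

universe u v w

section final

variable {G : Type*} [Group G] [TopologicalSpace G] [IsTopologicalGroup G] [CompactSpace G]
  {C : Type u} {kb : Type v} {N : Type w}
  [NontriviallyNormedField C] [IsUltrametricDist C] [CompleteSpace C] [IsAlgClosed C] [CharZero C]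
  [Field kb] [IsAlgClosed kb] [Field N] [Algebra kb C] [Algebra kb N] [TrdegOne kb N]
  [MulSemiringAction G kb] [MulSemiringAction G C] [MulSemiringAction G N]
  [NormAct G C] [OpenStab G N] [Equi G kb C] [Equi G kb N]

theorem transcendental_of_notMem {W : ValuationSubring N}
    (hW : ∀ c : kb, algebraMap kb N c ∈ W) {T : N} (hT : T ∉ W) : Transcendental kb T := by
  intro h
  have hi : IsIntegral kb T := h.isIntegral
  obtain ⟨a, ha⟩ := minpoly.mem_range_of_degree_eq_one kb T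
    (IsAlgClosed.degree_eq_one_of_irreducible kb (minpoly.irreducible hi))
  exact hT (ha ▸ hW a)

/-- **(3) uniqueness of the stable place**: inputs are (2b) existence of a disc containing a place,
(2c) uniqueness of that disc, and (T2) two fixed `D`-vertices are equal. -/
theorem uniqueStable
    {c : kb} (hc : ∀ g : G, g • c = c) (hc1 : 1 < ‖algebraMap kb C c‖)
    (hex : ∀ (T : N) [Fact (Transcendental kb T)] (W : ValuationSubring N),
      (∀ a : kb, algebraMap kb N a ∈ W) → T ∉ W → ∃ d : DT C kb N T, Cont d W)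
    (huniq : ∀ (T : N) [Fact (Transcendental kb T)] (W : ValuationSubring N),
      (∀ a : kb, algebraMap kb N a ∈ W) → T ∉ W → ∀ d d' : DT C kb N T, Cont d W → Cont d' W →
        d = d')
    (hT2 : ∀ (T : N) [Fact (Transcendental kb T)] [FixedT G T] (d d' : DT C kb N T),
      (∀ g : G, g • d = d) → (∀ g : G, g • d' = d') → d = d')
    (W₁ W₂ : ValuationSubring N) (h1 : ∀ a : kb, algebraMap kb N a ∈ W₁)
    (h2 : ∀ a : kb, algebraMap kb N a ∈ W₂) (h3 : W₁ ≠ ⊤) (h4 : W₂ ≠ ⊤)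
    (h5 : ∀ g : G, ∀ x ∈ W₁, g • x ∈ W₁) (h6 : ∀ g : G, ∀ x ∈ W₂, g • x ∈ W₂) : W₁ = W₂ := by
  by_contra hne
  have h12 : ¬ W₁ ≤ W₂ := fun h => hne (eq_of_le h h1 h4)
  have h21 : ¬ W₂ ≤ W₁ := fun h => hne (eq_of_le h h2 h3).symm
  obtain ⟨t, htf, ht0, ht1, ht2⟩ := exists_fixed_t h5 h6 h12 h21
  have hc0 : c ≠ 0 := by
    rintro rfl
    rw [map_zero, norm_zero] at hc1
    linarith
  have hcN : algebraMap kb N c ≠ 0 := by
    rw [Ne, map_eq_zero]; exact hc0
  -- the parameter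
  set T : N := (algebraMap kb N c)⁻¹ * (t + t⁻¹) with hT
  have hTe : algebraMap kb N c * T = t + t⁻¹ := by
    rw [hT, mul_inv_cancel_left₀ hcN]
  have hkey : ∀ (W : ValuationSubring N) (s : N), s ≠ 0 → (∀ a : kb, algebraMap kb N a ∈ W) →
      s + s⁻¹ = t + t⁻¹ → W.valuation s < 1 → T ∉ W := by
    intro W s hs0 hW hs hs1 hTW
    have h7 : s + s⁻¹ ∈ W := by
      rw [hs, ← hTe]
      exact mul_mem (hW c) hTW
    have h8 : s⁻¹ ∈ W := by
      have h9 : s⁻¹ = (s + s⁻¹) - s := by ring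
      rw [h9]
      exact sub_mem h7 ((W.valuation_le_one_iff _).1 hs1.le)
    exact (val_lt_one_iff W hs0).1 hs1 h8
  have hT1 : T ∉ W₁ := hkey W₁ t ht0 h1 rfl ht1
  have hT2' : T ∉ W₂ := hkey W₂ t⁻¹ (inv_ne_zero ht0) h2 (by rw [inv_inv, add_comm]) ht2
  have : Fact (Transcendental kb T) := ⟨transcendental_of_notMem h1 hT1⟩
  have hTf : ∀ g : G, g • T = T := by
    intro g
    rw [hT, smul_mul', smul_add, smul_inv'', smul_inv'', htf,
      Equi.smul_algebraMap (G := G) (F := kb), hc]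
  have : FixedT G T := ⟨hTf⟩
  have hfix : ∀ (W : ValuationSubring N), (∀ a : kb, algebraMap kb N a ∈ W) → T ∉ W →
      (∀ g : G, ∀ x ∈ W, g • x ∈ W) → ∃ d : DT C kb N T, (∀ g : G, g • d = d) ∧ Cont d W := by
    intro W hW hTW hst
    obtain ⟨d, hd⟩ := hex T W hW hTW
    refine ⟨d, fun g => ?_, hd⟩
    exact huniq T W hW hTW _ _ (hd.smul g (stable_smul_iff hst g⁻¹)) hd
  obtain ⟨d₁, hd₁, hc₁⟩ := hfix W₁ h1 hT1 h5
  obtain ⟨d₂, hd₂, hc₂⟩ := hfix W₂ h2 hT2' h6
  have hdd : d₁ = d₂ := hT2 T d₁ d₂ hd₁ hd₂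
  subst hdd
  exact not_both hc₁ hc₂ hc1 ht0 hTe ((W₁.valuation_le_one_iff _).1 ht1.le)
    ((W₂.valuation_le_one_iff _).1 ht2.le)

end final

end P025H63
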