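import Vale.Agent.P025.R2.H505.DPlace
import Vale.Agent.P025.R2.H720.KK

/-!
P025, A-END, item (3) (helper63), part 1: valuation rings of `N` over `kb` have rank one; two
different valuation rings stable under a profinite group are separated by a fixed element.
-/

set_option linter.unusedSectionVars false

namespace P025H63

open P025H720 P025H505

universe v w

section rank

variable {kb : Type v} {N : Type w} [Field kb] [Field N] [Algebra kb N]

theorem exists_small {W : ValuationSubring N} (h : W ≠ ⊤) : ∃ τ : N, τ ≠ 0 ∧ W.valuation τ < 1 := by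
  have h1 : ∃ x : N, x ∉ W := by
    by_contra hcon
    push Not at hcon
    exact h (eq_top_iff.2 fun x _ => hcon x)
  obtain ⟨x, hx⟩ := h1
  have hx0 : x ≠ 0 := by
    rintro rfl
    exact hx (zero_mem _)
  refine ⟨x⁻¹, inv_ne_zero hx0, ?_⟩
  rw [map_inv₀]
  have h1 : 1 < W.valuation x := by
    rw [← not_le, W.valuation_le_one_iff]
    exact hx
  exact inv_lt_one_of_one_lt₀ h1

theorem val_lt_one_iff (W : ValuationSubring N) {x : N} (hx0 : x ≠ 0) :
    W.valuation x < 1 ↔ x⁻¹ ∉ W := by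
  rw [← W.valuation_le_one_iff, map_inv₀, not_le,
    one_lt_inv₀ (zero_lt_iff.2 ((W.valuation.ne_zero_iff).2 hx0))]

theorem val_lt_of_le {W₁ W₂ : ValuationSubring N} (h : W₁ ≤ W₂) {x : N}
    (hx : W₂.valuation x < 1) : W₁.valuation x < 1 := by
  rcases eq_or_ne x 0 with rfl | hx0
  · rw [map_zero]; exact zero_lt_one
  · rw [val_lt_one_iff _ hx0] at hx ⊢
    exact fun hc => hx (h hc)

variable [IsAlgClosed kb] [TrdegOne kb N]

/-- valuation rings over the constants have rank at most one -/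
theorem eq_of_le {W₁ W₂ : ValuationSubring N} (hle : W₁ ≤ W₂)
    (hW : ∀ c : kb, algebraMap kb N c ∈ W₁) (h2 : W₂ ≠ ⊤) : W₁ = W₂ := by
  refine le_antisymm hle fun x hx => ?_
  by_contra hx1
  have hx0 : x ≠ 0 := by
    rintro rfl
    exact hx1 (zero_mem _)
  obtain ⟨τ, hτ0, hτ⟩ := exists_small h2
  have hz1 : W₁.valuation x⁻¹ < 1 := by
    rw [val_lt_one_iff _ (inv_ne_zero hx0), inv_inv]
    exact hx1
  have hz2 : x⁻¹ ∈ W₁ := (W₁.valuation_le_one_iff _).1 hz1.le
  obtain ⟨a, ha⟩ := exists_near_const W₂ (fun c => hle (hW c)) hτ0 hτ (hle hz2)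
  have ha1 := val_lt_of_le hle ha
  have ha2 : W₁.valuation (algebraMap kb N a) < 1 := by
    have h3 : algebraMap kb N a = x⁻¹ - (x⁻¹ - algebraMap kb N a) := by ring
    rw [h3]
    exact (Valuation.map_sub _ _ _).trans_lt (max_lt hz1 ha1)
  have ha3 := const_eq_zero hW ha2
  rw [ha3, map_zero, sub_zero, val_lt_one_iff _ (inv_ne_zero hx0), inv_inv] at ha
  exact ha hx

end rank

section orbit

variable {G : Type*} {N : Type w} [Group G] [TopologicalSpace G] [IsTopologicalGroup G]
  [CompactSpace G] [Field N] [MulSemiringAction G N] [OpenStab G N]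

theorem orbit_finite (x : N) : (MulAction.orbit G x).Finite := by
  have h2 : Finite (G ⧸ MulAction.stabilizer G x) :=
    Subgroup.quotient_finite_of_isOpen _ (OpenStab.isOpen x)
  exact Set.finite_coe_iff.1 (Finite.of_equiv _ (MulAction.orbitEquivQuotientStabilizer G x).symm)

theorem stable_smul_iff {W : ValuationSubring N} (hW : ∀ g : G, ∀ x ∈ W, g • x ∈ W) (g : G) (x : N) :
    g • x ∈ W ↔ x ∈ W := by
  refine ⟨fun h => ?_, hW g x⟩
  have h1 := hW g⁻¹ _ h
  rwa [inv_smul_smul] at h1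

theorem val_smul_lt {W : ValuationSubring N} (hW : ∀ g : G, ∀ x ∈ W, g • x ∈ W) (g : G) {x : N}
    (hx : W.valuation x < 1) : W.valuation (g • x) < 1 := by
  rcases eq_or_ne x 0 with rfl | hx0
  · rw [smul_zero, map_zero]; exact zero_lt_one
  · have h0 : g • x ≠ 0 := by
      intro h
      exact hx0 ((smul_eq_zero_iff_eq g).1 h)
    rw [val_lt_one_iff _ hx0] at hx
    rw [val_lt_one_iff _ h0, ← smul_inv'', stable_smul_iff hW]
    exact hx

/-- the product over the orbit -/
noncomputable def orbProd (G : Type*) {N : Type w} [Group G] [TopologicalSpace G]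
    [IsTopologicalGroup G] [CompactSpace G] [Field N] [MulSemiringAction G N] [OpenStab G N]
    (x : N) : N := ∏ z ∈ (orbit_finite (G := G) x).toFinset, z

theorem orbProd_fixed (x : N) (g : G) : g • orbProd G x = orbProd G x := by
  classical
  rw [orbProd, Finset.smul_prod']
  refine Finset.prod_bij (fun z _ => g • z) ?_ ?_ ?_ ?_
  · intro z hz
    rw [Set.Finite.mem_toFinset] at hz ⊢
    exact MulAction.mem_orbit_of_mem_orbit g hz
  · intro a _ b _ h
    exact MulAction.injective g h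
  · intro b hb
    rw [Set.Finite.mem_toFinset] at hb
    refine ⟨g⁻¹ • b, ?_, smul_inv_smul g b⟩
    rw [Set.Finite.mem_toFinset]
    exact MulAction.mem_orbit_of_mem_orbit g⁻¹ hb
  · intro a _
    rfl

theorem orbProd_val {W : ValuationSubring N} (hW : ∀ g : G, ∀ x ∈ W, g • x ∈ W) {x : N}
    (hx : W.valuation x < 1) : W.valuation (orbProd G x) < 1 := by
  classical
  have h1 : ∀ z ∈ (orbit_finite (G := G) x).toFinset, W.valuation z < 1 := by
    intro z hz
    rw [Set.Finite.mem_toFinset] at hz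
    obtain ⟨g, rfl⟩ := hz
    exact val_smul_lt hW g hx
  have hx' : x ∈ (orbit_finite (G := G) x).toFinset := by
    rw [Set.Finite.mem_toFinset]
    exact MulAction.mem_orbit_self x
  rw [orbProd, map_prod, ← Finset.mul_prod_erase _ _ hx']
  have h2 : ∏ z ∈ (orbit_finite (G := G) x).toFinset.erase x, W.valuation z ≤ 1 := by
    apply Finset.prod_le_one'
    intro z hz
    exact (h1 z (Finset.mem_of_mem_erase hz)).le
  exact mul_lt_one_of_lt_of_le hx h2

theorem orbProd_inv (x : N) : (orbProd G x)⁻¹ = orbProd G x⁻¹ := by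
  classical
  rw [orbProd, orbProd, ← Finset.prod_inv_distrib]
  refine Finset.prod_bij (fun z _ => z⁻¹) ?_ ?_ ?_ ?_
  · intro z hz
    rw [Set.Finite.mem_toFinset] at hz ⊢
    obtain ⟨g, rfl⟩ := hz
    exact ⟨g, smul_inv'' g x⟩
  · intro a _ b _ h
    exact inv_injective h
  · intro b hb
    rw [Set.Finite.mem_toFinset] at hb
    obtain ⟨g, rfl⟩ := hb
    refine ⟨g • x, ?_, ?_⟩
    · rw [Set.Finite.mem_toFinset]
      exact ⟨g, rfl⟩
    · exact (smul_inv'' g x).symm
  · intro a _
    rfl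

/-- **separation by a fixed element** -/
theorem exists_fixed_t {W₁ W₂ : ValuationSubring N} (h₁ : ∀ g : G, ∀ x ∈ W₁, g • x ∈ W₁)
    (h₂ : ∀ g : G, ∀ x ∈ W₂, g • x ∈ W₂) (h12 : ¬ W₁ ≤ W₂) (h21 : ¬ W₂ ≤ W₁) :
    ∃ t : N, (∀ g : G, g • t = t) ∧ t ≠ 0 ∧ W₁.valuation t < 1 ∧ W₂.valuation t⁻¹ < 1 := by
  obtain ⟨x, hx1, hx2⟩ := SetLike.not_le_iff_exists.1 h12
  obtain ⟨y, hy2, hy1⟩ := SetLike.not_le_iff_exists.1 h21
  have hx0 : x ≠ 0 := by
    rintro rfl
    exact hx2 (zero_mem _)
  have hy0 : y ≠ 0 := by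
    rintro rfl
    exact hy1 (zero_mem _)
  have hu : x / y ≠ 0 := div_ne_zero hx0 hy0
  have hu1 : W₁.valuation (x / y) < 1 := by
    rw [val_lt_one_iff _ hu, inv_div]
    intro h
    apply hy1
    have h3 : y = y / x * x := by field_simp
    rw [h3]
    exact mul_mem h hx1
  have hu2 : W₂.valuation (x / y)⁻¹ < 1 := by
    rw [val_lt_one_iff _ (inv_ne_zero hu), inv_inv]
    intro h
    apply hx2
    have h3 : x = x / y * y := by field_simp
    rw [h3]
    exact mul_mem h hy2
  refine ⟨orbProd G (x / y), orbProd_fixed _, ?_, orbProd_val h₁ hu1, ?_⟩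
  · rw [orbProd, Finset.prod_ne_zero_iff]
    intro z hz
    rw [Set.Finite.mem_toFinset] at hz
    obtain ⟨g, rfl⟩ := hz
    intro h
    exact hu ((smul_eq_zero_iff_eq g).1 h)
  · rw [orbProd_inv]
    exact orbProd_val h₂ hu2

end orbit

end P025H63
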