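import Vale.Agent.P025.R2.H63.ContDef
import Vale.Agent.P025.R2.H63.StabA

/-!
P025, A-END, item (3) (helper63), part 2: a disc vertex does not contain two different places,
for a suitable parameter; the relation `Cont` is compatible with the group.
-/

set_option linter.unusedSectionVars false

namespace P025H63

open scoped TensorProduct
open Polynomial P025H373 P025H544 P025H505 P025H720

universe u v w

section trans

variable {G F A L : Type*} [Group G] [Field F] [Field A] [Field L] [Algebra F A] [Algebra F L]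
  [MulSemiringAction G F] [MulSemiringAction G A] [MulSemiringAction G L]
  [Equi G F A] [Equi G F L]

/-- transport of residue fields -/
noncomputable def kkTr (g : G) (v : Pt F A L) : KK (g • v) →+* KK v :=
  Ideal.quotientMap v.asIdeal (MulSemiringAction.toRingHom G (A ⊗[F] L) g⁻¹) (by
    intro x hx
    rw [Ideal.mem_comap]
    have h1 := (smul_mem_smul_pt g v (g⁻¹ • x)).1 (by rwa [smul_inv_smul])
    exact h1)

theorem kkTr_toKK (g : G) (v : Pt F A L) (z : A ⊗[F] L) :
    kkTr g v (toKK (g • v) z) = toKK v (g⁻¹ • z) := Ideal.quotientMap_mk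

theorem kkTr_A (g : G) (v : Pt F A L) (a : A) :
    kkTr g v (algebraMap A (KK (g • v)) a) = algebraMap A (KK v) (g⁻¹ • a) := by
  rw [algebraMap_KKA, kkTr_toKK, smul_tmul_semi, smul_one, algebraMap_KKA]

theorem kkTr_L (g : G) (v : Pt F A L) (x : L) :
    kkTr g v (algebraMap L (KK (g • v)) x) = algebraMap L (KK v) (g⁻¹ • x) := by
  rw [algebraMap_KKL, kkTr_toKK, smul_tmul_semi, smul_one, algebraMap_KKL]

end trans

section eps

variable {C : Type u} [NontriviallyNormedField C] [IsUltrametricDist C] [CompleteSpace C]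
  [IsAlgClosed C]

/-- the small root of `y ^ 2 - y + ε` -/
theorem exists_small_root {ε : F0 C} (hε : ε ∈ A2 C) (h1 : ‖ε‖ < 1) :
    ∃ δ ∈ A2 C, ‖δ‖ ≤ ‖ε‖ ∧ δ = ε + δ ^ 2 := by
  set s : Set (F0 C) := {δ | δ ∈ A2 C ∧ ‖δ‖ ≤ ‖ε‖} with hs
  have hsc : IsComplete s := by
    apply IsClosed.isComplete
    apply IsClosed.inter isClosed_A2
    exact isClosed_le continuous_norm continuous_const
  set f : F0 C → F0 C := fun δ => ε + δ ^ 2 with hf
  have hsf : Set.MapsTo f s s := by
    rintro δ ⟨hδ1, hδ2⟩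
    refine ⟨add_mem hε (pow_mem hδ1 2), ?_⟩
    refine (IsUltrametricDist.norm_add_le_max _ _).trans (max_le le_rfl ?_)
    rw [norm_pow, pow_two]
    calc ‖δ‖ * ‖δ‖ ≤ 1 * ‖ε‖ := by
          gcongr
          exact hδ2.trans h1.le
      _ = ‖ε‖ := one_mul _
  have hctr : ContractingWith ⟨‖ε‖, norm_nonneg _⟩ (hsf.restrict f s s) := by
    refine ⟨by exact_mod_cast h1, LipschitzWith.of_dist_le_mul ?_⟩
    rintro ⟨x, hx1, hx2⟩ ⟨y, hy1, hy2⟩
    rw [Subtype.dist_eq, Subtype.dist_eq, dist_eq_norm, dist_eq_norm]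
    change ‖(ε + x ^ 2) - (ε + y ^ 2)‖ ≤ ‖ε‖ * ‖x - y‖
    have h2 : (ε + x ^ 2) - (ε + y ^ 2) = (x + y) * (x - y) := by ring
    rw [h2, norm_mul]
    gcongr
    exact (IsUltrametricDist.norm_add_le_max _ _).trans (max_le hx2 hy2)
  have h0 : (0 : F0 C) ∈ s := ⟨zero_mem _, by rw [norm_zero]; exact norm_nonneg _⟩
  obtain ⟨δ, hδ, hfix, -⟩ := ContractingWith.exists_fixedPoint' hsc hsf hctr h0 (edist_ne_top _ _)
  exact ⟨δ, hδ.1, hδ.2, hfix.symm⟩

end eps

section two

variable {C : Type u} {kb : Type v} {N : Type w}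
  [NontriviallyNormedField C] [IsUltrametricDist C] [CompleteSpace C] [IsAlgClosed C] [CharZero C]
  [Field kb] [IsAlgClosed kb] [Field N] [Algebra kb C] [Algebra kb N] [TrdegOne kb N]
  {T : N} [Fact (Transcendental kb T)]

/-- the embedding of `N` in the residue field of a `D`-vertex -/
noncomputable def nk (d : DT C kb N T) : N →+* KK d :=
  (algebraMap (NCT C kb N T) (KK d)).comp (algebraMap N (NCT C kb N T))

theorem nk_const (d : DT C kb N T) (a : kb) : nk d (algebraMap kb N a) =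
    algebraMap (F2 C) (KK d) (algebraMap (RatFunc C) (F2 C) (RatFunc.C (algebraMap kb C a))) := by
  rw [algebraMap_KK_F, algebraMap_T_C, ← IsScalarTower.algebraMap_apply kb C (NCT C kb N T)]
  change algebraMap (NCT C kb N T) (KK d) (algebraMap N (NCT C kb N T) (algebraMap kb N a)) = _
  rw [← IsScalarTower.algebraMap_apply kb N (NCT C kb N T)]

theorem nk_T (d : DT C kb N T) : nk d T =
    algebraMap (F2 C) (KK d) (algebraMap (RatFunc C) (F2 C) RatFunc.X) := by
  rw [algebraMap_KK_F, algebraMap_T_X]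
  rfl

theorem constF2_mem (a : C) : ((algebraMap (RatFunc C) (F2 C) (RatFunc.C a) : F2 C) : F0 C) ∈
    A2 C := (A2 C).algebraMap_mem a

theorem mul_notMem {d : DT C kb N T} {O : ValuationSubring (KK d)}
    (hO : ∀ x : F2 C, (x : F0 C) ∈ A2 C → algebraMap (F2 C) (KK d) x ∈ O) (hT : nk d T ∉ O)
    {c : kb} (hc : c ≠ 0) {y yi : F2 C} (hyi : (yi : F0 C) ∈ A2 C) (h1 : yi * y = 1) :
    algebraMap (F2 C) (KK d) y * (nk d (algebraMap kb N c) * nk d T) ∉ O := by
  intro h
  apply hT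
  have h2 : nk d T = algebraMap (F2 C) (KK d) yi * nk d (algebraMap kb N c⁻¹) *
      (algebraMap (F2 C) (KK d) y * (nk d (algebraMap kb N c) * nk d T)) := by
    have h3 : algebraMap (F2 C) (KK d) yi * algebraMap (F2 C) (KK d) y = 1 := by
      rw [← map_mul, h1, map_one]
    have h4 : nk d (algebraMap kb N c⁻¹) * nk d (algebraMap kb N c) = 1 := by
      rw [← map_mul, ← map_mul, inv_mul_cancel₀ hc, map_one, map_one]
    linear_combination (-(nk d T) * (nk d (algebraMap kb N c⁻¹) * nk d (algebraMap kb N c))) * h3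
      - nk d T * h4
  rw [h2]
  refine mul_mem (mul_mem (hO _ hyi) ?_) h
  rw [nk_const]
  exact hO _ (constF2_mem _)

/-- a disc vertex does not contain two places separated by `t`, where `c * T = t + 1 / t` -/
theorem not_both {d : DT C kb N T} {W₁ W₂ : ValuationSubring N} (h₁ : Cont d W₁) (h₂ : Cont d W₂)
    {c : kb} (hc : 1 < ‖algebraMap kb C c‖) {t : N} (ht0 : t ≠ 0)
    (hT : algebraMap kb N c * T = t + t⁻¹) (ht1 : t ∈ W₁) (ht2 : t⁻¹ ∈ W₂) : False := by
  obtain ⟨O₁, hO₁, hT₁, hW₁⟩ := h₁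
  obtain ⟨O₂, hO₂, hT₂, hW₂⟩ := h₂
  have hc0 : c ≠ 0 := by
    rintro rfl
    rw [map_zero, norm_zero] at hc
    linarith
  have hcC0 : algebraMap kb C c ≠ 0 := by
    rw [Ne, map_eq_zero]; exact hc0
  -- the element `m = c * T`
  set m : F2 C := algebraMap (RatFunc C) (F2 C) (RatFunc.C (algebraMap kb C c)) *
    algebraMap (RatFunc C) (F2 C) RatFunc.X with hm
  have hm1 : (m : F0 C) = algebraMap C (F0 C) (algebraMap kb C c) * tt C := rfl
  have hmn : ‖(m : F0 C)‖ = ‖algebraMap kb C c‖ := by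
    rw [hm1, norm_mul, norm_algebraMap_C, norm_tt, mul_one]
  have hm0 : (m : F0 C) ≠ 0 := by
    rw [← norm_ne_zero_iff, hmn]
    linarith
  have hm0' : m ≠ 0 := fun h => hm0 (by rw [h]; rfl)
  have hmk : algebraMap (F2 C) (KK d) m = nk d (algebraMap kb N c) * nk d T := by
    rw [nk_const, nk_T, ← map_mul]
  have hmt : algebraMap (F2 C) (KK d) m = nk d t + nk d t⁻¹ := by
    rw [hmk, ← map_mul, hT, map_add]
  clear_value m
  -- the small root
  have hε : ((m : F0 C)⁻¹) ^ 2 ∈ A2 C := by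
    apply pow_mem
    rw [hm1, mul_inv, ← map_inv₀]
    exact mul_mem ((A2 C).algebraMap_mem _) inv_tt_mem_A2
  have hε1 : ‖((m : F0 C)⁻¹) ^ 2‖ < 1 := by
    rw [norm_pow, norm_inv, hmn]
    exact pow_lt_one₀ (inv_nonneg.2 (norm_nonneg _)) (inv_lt_one_of_one_lt₀ hc) two_ne_zero
  obtain ⟨δ, hδ, hδn, hδe⟩ := exists_small_root hε hε1
  have hδ1 : ‖-δ‖ < 1 := by
    rw [norm_neg]
    exact hδn.trans_lt hε1
  obtain ⟨hyi, -⟩ := exists_inv_A2 (neg_mem hδ) hδ1
  have hy0 := one_add_ne_zero' hδ1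
  have hδF : δ ∈ F2 C := A2_le_F2 hδ
  set D : F2 C := ⟨δ, hδF⟩ with hD
  set y : F2 C := 1 - D with hy
  set yi : F2 C := ⟨(1 + -δ)⁻¹, A2_le_F2 hyi⟩ with hyi'
  have hyy : yi * y = 1 := by
    apply Subtype.ext
    change (1 + -δ)⁻¹ * (1 - δ) = 1
    rw [← sub_eq_add_neg]
    rw [← sub_eq_add_neg] at hy0
    exact inv_mul_cancel₀ hy0
  have hDe : D * m ^ 2 = 1 + D ^ 2 * m ^ 2 := by
    apply Subtype.ext
    change δ * (m : F0 C) ^ 2 = 1 + δ ^ 2 * (m : F0 C) ^ 2
    have h3 : ((m : F0 C)⁻¹) ^ 2 * (m : F0 C) ^ 2 = 1 := by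
      rw [← mul_pow, inv_mul_cancel₀ hm0, one_pow]
    linear_combination (m : F0 C) ^ 2 * hδe + h3
  -- in the residue field
  set j := algebraMap (F2 C) (KK d) with hj
  have htt : nk d t * nk d t⁻¹ = 1 := by
    rw [← map_mul, mul_inv_cancel₀ ht0, map_one]
  have hkey : (nk d t - j D * j m) * (nk d t - j y * j m) = 0 := by
    have h3 : j D * j m ^ 2 = 1 + j D ^ 2 * j m ^ 2 := by
      have := congrArg j hDe
      rwa [map_mul, map_pow, map_add, map_one, map_mul, map_pow, map_pow] at this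
    have h4 : j y = 1 - j D := by rw [hy, map_sub, map_one]
    rw [h4]
    have h5 : j m = nk d t + nk d t⁻¹ := hmt
    have h6 : nk d t ^ 2 - nk d t * j m + 1 = 0 := by
      rw [h5]
      linear_combination (-1 : KK d) * htt
    linear_combination h6 + h3
  rcases mul_eq_zero.1 hkey with h | h
  · -- `t⁻¹ = y * m`
    have h3 : nk d t⁻¹ = j y * (nk d (algebraMap kb N c) * nk d T) := by
      rw [← hmk, hy, map_sub, map_one]
      linear_combination -h - hmt
    have h4 := mul_notMem hO₂ hT₂ hc0 hyi hyy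
    rw [← h3] at h4
    exact h4 ((hW₂ _).2 ht2)
  · have h3 : nk d t = j y * (nk d (algebraMap kb N c) * nk d T) := by
      rw [← hmk]
      linear_combination h
    have h4 := mul_notMem hO₁ hT₁ hc0 hyi hyy
    rw [← h3] at h4
    exact h4 ((hW₁ _).2 ht1)

end two

section equiv

variable {G : Type*} [Group G] [TopologicalSpace G] [IsTopologicalGroup G]
  {C : Type u} {kb : Type v} {N : Type w}
  [NontriviallyNormedField C] [IsUltrametricDist C] [CompleteSpace C] [IsAlgClosed C] [CharZero C]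
  [Field kb] [IsAlgClosed kb] [Field N] [Algebra kb C] [Algebra kb N] [TrdegOne kb N]
  [MulSemiringAction G kb] [MulSemiringAction G C] [MulSemiringAction G N]
  [NormAct G C] [Equi G kb C] [Equi G kb N]
  {T : N} [Fact (Transcendental kb T)] [FixedT G T]

/-- `Cont` is compatible with the group -/
theorem Cont.smul {d : DT C kb N T} {W W' : ValuationSubring N} (h : Cont d W) (g : G)
    (hg : ∀ x : N, g⁻¹ • x ∈ W ↔ x ∈ W') : Cont (g • d) W' := by
  obtain ⟨O, hO, hT, hW⟩ := h
  refine ⟨O.comap (kkTr g d), ?_, ?_, ?_⟩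
  · intro x hx
    rw [ValuationSubring.mem_comap, kkTr_A]
    exact hO _ (smul_mem_A2 g⁻¹ hx)
  · rw [ValuationSubring.mem_comap, kkTr_L, Equi.smul_algebraMap (G := G) (F := N),
      FixedT.fixed (T := T) g⁻¹]
    exact hT
  · intro x
    rw [ValuationSubring.mem_comap, kkTr_L, Equi.smul_algebraMap (G := G) (F := N), hW, hg]

end equiv

end P025H63
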