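import Vale.Agent.P025.R2.H720.Tree
import Vale.Agent.P025.R2.H505.ExistG

/-! # Restriction of the group acting on the tree

If `P` acts on `C`, `N` through a map `j : P → G`, then the actions of `s` and of `j s` on the
points of the tree agree. -/

set_option linter.unusedSectionVars false

namespace P025H63

open scoped TensorProduct
open Polynomial P025H373 P025H544 P025H505 P025H720

universe u v w

section Hom

variable {P G : Type*} [Group P] [Group G]

section Rat

variable {C : Type u} [Field C] [MulSemiringAction P C] [MulSemiringAction G C]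

theorem poly_smul_eq {s : P} {g : G} (h : ∀ c : C, s • c = g • c) (f : C[X]) : s • f = g • f := by
  ext i
  rw [Polynomial.coeff_smul, Polynomial.coeff_smul, h]

theorem rat_smul_eq {s : P} {g : G} (h : ∀ c : C, s • c = g • c) (f : RatFunc C) :
    s • f = g • f := by
  rw [← f.num_div_denom, smul_div₀', smul_div₀', smul_poly, smul_poly, smul_poly, smul_poly,
    poly_smul_eq h, poly_smul_eq h]

end Rat

section F0

variable [TopologicalSpace P] [TopologicalSpace G] {C : Type u} [NontriviallyNormedField C]
  [IsUltrametricDist C] [MulSemiringAction P C] [MulSemiringAction G C] [NormAct P C] [NormAct G C]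

theorem F0_smul_eq {s : P} {g : G} (h : ∀ c : C, s • c = g • c) (x : F0 C) : s • x = g • x := by
  rw [F0_smul_def, F0_smul_def]
  refine F0_induction (p := fun x => F0hom s x = F0hom g x) x
    (isClosed_eq (continuous_F0hom s) (continuous_F0hom g)) ?_
  intro f
  rw [F0hom_algebraMap, F0hom_algebraMap, rat_smul_eq h]

end F0

section NC

variable {C : Type u} {kb : Type v} {N : Type w} [Field C] [Field kb]
  [IsAlgClosed kb] [Field N] [Algebra kb C] [Algebra kb N]
  [MulSemiringAction P kb] [MulSemiringAction P C] [MulSemiringAction P N]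
  [Equi P kb C] [Equi P kb N]
  [MulSemiringAction G kb] [MulSemiringAction G C] [MulSemiringAction G N]
  [Equi G kb C] [Equi G kb N]

theorem tensor_smul_eq {s : P} {g : G} (h : ∀ c : C, s • c = g • c) (h' : ∀ x : N, s • x = g • x)
    (z : C ⊗[kb] N) : s • z = g • z := by
  induction z using TensorProduct.induction_on with
  | zero => rw [smul_zero, smul_zero]
  | add x y hx hy => rw [smul_add, smul_add, hx, hy]
  | tmul a x => rw [smul_tmul_semi, smul_tmul_semi, h, h']

theorem nc_smul_eq {s : P} {g : G} (h : ∀ c : C, s • c = g • c) (h' : ∀ x : N, s • x = g • x)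
    (z : NC C kb N) : s • z = g • z := by
  obtain ⟨a, b, _, rfl⟩ := IsFractionRing.div_surjective (A := C ⊗[kb] N) (K := NC C kb N) z
  rw [smul_div₀', smul_div₀', smul_algebraMap_tensor, smul_algebraMap_tensor,
    smul_algebraMap_tensor, smul_algebraMap_tensor, tensor_smul_eq h h', tensor_smul_eq h h']

theorem nct_smul_eq (T : N) {s : P} {g : G} (h : ∀ c : C, s • c = g • c)
    (h' : ∀ x : N, s • x = g • x) (z : NCT C kb N T) : s • z = g • z :=
  nc_smul_eq h h' z

end NC

section Pt

variable [TopologicalSpace P] [TopologicalSpace G]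
  {C : Type u} {kb : Type v} {N : Type w}
  [NontriviallyNormedField C] [IsUltrametricDist C] [CompleteSpace C] [IsAlgClosed C] [CharZero C]
  [Field kb] [IsAlgClosed kb] [Field N] [Algebra kb C] [Algebra kb N] [TrdegOne kb N]
  [MulSemiringAction P kb] [MulSemiringAction P C] [MulSemiringAction P N]
  [NormAct P C] [Equi P kb C] [Equi P kb N]
  [MulSemiringAction G kb] [MulSemiringAction G C] [MulSemiringAction G N]
  [NormAct G C] [Equi G kb C] [Equi G kb N]
  {T : N} [Fact (Transcendental kb T)] [FixedT P T] [FixedT G T]

theorem f0n_smul_eq {s : P} {g : G} (h : ∀ c : C, s • c = g • c) (h' : ∀ x : N, s • x = g • x)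
    (z : F0 C ⊗[RatFunc C] NCT C kb N T) : s • z = g • z := by
  induction z using TensorProduct.induction_on with
  | zero => rw [smul_zero, smul_zero]
  | add x y hx hy => rw [smul_add, smul_add, hx, hy]
  | tmul a x => rw [smul_tmul_semi, smul_tmul_semi, F0_smul_eq h, nct_smul_eq T h h']

/-- the two actions on the edges agree -/
theorem et_smul_eq {s : P} {g : G} (h : ∀ c : C, s • c = g • c) (h' : ∀ x : N, s • x = g • x)
    (e : ET C kb N T) : s • e = g • e := by
  have hi : ∀ c : C, s⁻¹ • c = g⁻¹ • c := by
    intro c
    rw [inv_smul_eq_iff, h, smul_inv_smul]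
  have hi' : ∀ x : N, s⁻¹ • x = g⁻¹ • x := by
    intro c
    rw [inv_smul_eq_iff, h', smul_inv_smul]
  apply PrimeSpectrum.ext
  ext z
  rw [mem_smul_pt, mem_smul_pt, f0n_smul_eq hi hi']

end Pt

end Hom

section Sub

variable {G : Type*} [Group G] [TopologicalSpace G] (H : Subgroup G)

instance normAct_sub {C : Type*} [NormedField C] [MulSemiringAction G C] [NormAct G C] :
    NormAct H C where
  norm_smul g c := NormAct.norm_smul (g : G) c
  cont c := (NormAct.cont (G := G) c).comp continuous_subtype_val

instance openStab_sub {N : Type*} [MulAction G N] [OpenStab G N] : OpenStab H N where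
  isOpen x := (OpenStab.isOpen (G := G) x).preimage continuous_subtype_val

instance equi_sub {F A : Type*} [CommRing F] [CommRing A] [Algebra F A] [MulSemiringAction G F]
    [MulSemiringAction G A] [Equi G F A] : Equi H F A where
  smul_algebraMap g r := Equi.smul_algebraMap (g : G) r

instance fixedT_sub {N : Type*} [MulAction G N] (T : N) [FixedT G T] : FixedT H T where
  fixed g := FixedT.fixed (g : G)

end Sub

end P025H63
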